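import Mathlib

namespace Vale.Agent.Lib.P097

/-- Euclidean inner product on the plane, identified with the complex numbers. -/
def dot (z w : ℂ) : ℝ := z.re * w.re + z.im * w.im

end Vale.Agent.Lib.P097
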