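import Mathlib
import Vale.Agent.Lib.P097.Defs

namespace Vale.Agent.Lib.P097

open Complex

/-- planar cross product -/
def cross (z w : ℂ) : ℝ := z.re * w.im - z.im * w.re

theorem sym_lemma (S : Set ℝ) (g ω : ℝ → ℂ) (s1 s2 : ℝ) (h1 : s1 ∈ S) (h2 : s2 ∈ S)
    (hD : cross (g s1) (g s2) ≠ 0)
    (hsym : ∀ s ∈ S, ∀ t ∈ S, dot (g t) (ω s) = dot (g s) (ω t)) :
    ∃ α β δ : ℝ, ∀ t ∈ S, (ω t).re = α * (g t).re + β * (g t).im ∧
      (ω t).im = β * (g t).re + δ * (g t).im := by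
  have E0 := hsym s1 h1 s2 h2
  simp only [dot, cross] at *
  refine ⟨((g s2).im * (ω s1).re - (g s1).im * (ω s2).re) /
            ((g s1).re * (g s2).im - (g s1).im * (g s2).re),
          ((g s2).im * (ω s1).im - (g s1).im * (ω s2).im) /
            ((g s1).re * (g s2).im - (g s1).im * (g s2).re),
          (-(g s2).re * (ω s1).im + (g s1).re * (ω s2).im) /
            ((g s1).re * (g s2).im - (g s1).im * (g s2).re), ?_⟩
  intro t ht
  have E1 := hsym s1 h1 t ht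
  have E2 := hsym s2 h2 t ht
  constructor
  · have hu : (ω t).re = (((g s2).im * (ω s1).re - (g s1).im * (ω s2).re) * (g t).re +
        ((g s2).im * (ω s1).im - (g s1).im * (ω s2).im) * (g t).im) /
            ((g s1).re * (g s2).im - (g s1).im * (g s2).re) := by
      rw [eq_div_iff hD]
      linear_combination (g s1).im * E2 - (g s2).im * E1
    rw [hu]; ring
  · have hu : (ω t).im = (((g s2).im * (ω s1).im - (g s1).im * (ω s2).im) * (g t).re +
        (-(g s2).re * (ω s1).im + (g s1).re * (ω s2).im) * (g t).im) /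
            ((g s1).re * (g s2).im - (g s1).im * (g s2).re) := by
      rw [eq_div_iff hD]
      linear_combination (g s2).re * E1 - (g s1).re * E2 - (g t).re * E0
    rw [hu]; ring


theorem local_affine (S : Set ℝ) (γ w : ℝ → ℂ) (s0 s1 s2 : ℝ) (h0 : s0 ∈ S) (h1 : s1 ∈ S)
    (h2 : s2 ∈ S) (hD : cross (γ s1 - γ s0) (γ s2 - γ s0) ≠ 0)
    (hstar : ∀ s ∈ S, ∀ t ∈ S, dot (γ t - γ s) (w s + w t) = 0) :
    ∃ α β δ b1 b2 : ℝ, ∀ t ∈ S, (w t).re = α * (γ t).re + β * (γ t).im + b1 ∧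
      (w t).im = β * (γ t).re + δ * (γ t).im + b2 := by
  obtain ⟨α, β, δ, h⟩ := sym_lemma S (fun t => γ t - γ s0) (fun t => w t - w s0) s1 s2 h1 h2 hD
    (by
      intro s hs t ht
      have a := hstar s hs t ht
      have b := hstar s0 h0 t ht
      have c := hstar s0 h0 s hs
      simp only [dot, Complex.sub_re, Complex.sub_im, Complex.add_re, Complex.add_im] at *
      linear_combination a - b + c)
  refine ⟨α, β, δ, (w s0).re - α * (γ s0).re - β * (γ s0).im,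
    (w s0).im - β * (γ s0).re - δ * (γ s0).im, ?_⟩
  intro t ht
  obtain ⟨e1, e2⟩ := h t ht
  simp only [Complex.sub_re, Complex.sub_im] at e1 e2
  constructor <;> linarith

theorem hasDerivAt_re {γ : ℝ → ℂ} {T : ℂ} {s : ℝ} (h : HasDerivAt γ T s) :
    HasDerivAt (fun t => (γ t).re) T.re s :=
  (Complex.reCLM.hasFDerivAt).comp_hasDerivAt s h

theorem hasDerivAt_im {γ : ℝ → ℂ} {T : ℂ} {s : ℝ} (h : HasDerivAt γ T s) :
    HasDerivAt (fun t => (γ t).im) T.im s :=
  (Complex.imCLM.hasFDerivAt).comp_hasDerivAt s h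

theorem hasDerivAt_dot_left {γ : ℝ → ℂ} {T : ℂ} {s : ℝ} (h : HasDerivAt γ T s) (v : ℂ) :
    HasDerivAt (fun t => dot (γ t) v) (dot T v) s :=
  ((hasDerivAt_re h).mul_const v.re).add ((hasDerivAt_im h).mul_const v.im)

theorem hasDerivAt_cross_left {γ : ℝ → ℂ} {T : ℂ} {s : ℝ} (h : HasDerivAt γ T s) (v : ℂ) :
    HasDerivAt (fun t => cross (γ t) v) (cross T v) s :=
  ((hasDerivAt_re h).mul_const v.im).sub ((hasDerivAt_im h).mul_const v.re)

theorem hasDerivAt_cross_right {γ : ℝ → ℂ} {T : ℂ} {s : ℝ} (h : HasDerivAt γ T s) (v : ℂ) :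
    HasDerivAt (fun t => cross v (γ t)) (cross v T) s :=
  ((hasDerivAt_im h).const_mul v.re).sub ((hasDerivAt_re h).const_mul v.im)


theorem unit_sq {z : ℂ} (h : ‖z‖ = 1) : z.re * z.re + z.im * z.im = 1 := by
  have := Complex.sq_norm z
  rw [h, Complex.normSq_apply] at this
  linarith

theorem exists_noncollinear (γ T : ℝ → ℂ) (κ : ℝ → ℝ)
    (hγ : ∀ s, HasDerivAt γ (T s) s) (hunit : ∀ s, ‖T s‖ = 1)
    (hT : ∀ s, HasDerivAt T ((κ s : ℂ) * (Complex.I * T s)) s) (hκ : ∀ s, κ s ≠ 0)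
    (a b : ℝ) (hab : a < b) :
    ∃ s0 ∈ Set.Ioo a b, ∃ s1 ∈ Set.Ioo a b, ∃ s2 ∈ Set.Ioo a b,
      cross (γ s1 - γ s0) (γ s2 - γ s0) ≠ 0 := by
  by_contra hcon
  push Not at hcon
  have hs0m : (a + b) / 2 ∈ Set.Ioo a b := ⟨by linarith, by linarith⟩
  generalize (a + b) / 2 = s0 at hs0m
  have h1 : ∀ s1 ∈ Set.Ioo a b, cross (γ s1 - γ s0) (T s0) = 0 := by
    intro s1 hs1
    have hd : HasDerivAt (fun s2 => cross (γ s1 - γ s0) (γ s2 - γ s0))
        (cross (γ s1 - γ s0) (T s0)) s0 :=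
      hasDerivAt_cross_right ((hγ s0).sub_const (γ s0)) _
    have hz : (fun s2 => cross (γ s1 - γ s0) (γ s2 - γ s0)) =ᶠ[nhds s0] fun _ => 0 := by
      filter_upwards [Ioo_mem_nhds hs0m.1 hs0m.2] with s2 hs2
      exact hcon s0 hs0m s1 hs1 s2 hs2
    exact (hz.hasDerivAt_iff.mp hd).unique (hasDerivAt_const s0 (0:ℝ))
  have h2 : ∀ s ∈ Set.Ioo a b, cross (T s) (T s0) = 0 := by
    intro s hs
    have hd : HasDerivAt (fun s1 => cross (γ s1 - γ s0) (T s0)) (cross (T s) (T s0)) s :=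
      hasDerivAt_cross_left ((hγ s).sub_const (γ s0)) _
    have hz : (fun s1 => cross (γ s1 - γ s0) (T s0)) =ᶠ[nhds s] fun _ => 0 := by
      filter_upwards [Ioo_mem_nhds hs.1 hs.2] with s1 hs1
      exact h1 s1 hs1
    exact (hz.hasDerivAt_iff.mp hd).unique (hasDerivAt_const s (0:ℝ))
  have h3 : cross ((κ s0 : ℂ) * (Complex.I * T s0)) (T s0) = 0 := by
    have hd := hasDerivAt_cross_left (hT s0) (T s0)
    have hz : (fun s => cross (T s) (T s0)) =ᶠ[nhds s0] fun _ => 0 := by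
      filter_upwards [Ioo_mem_nhds hs0m.1 hs0m.2] with s hs
      exact h2 s hs
    exact (hz.hasDerivAt_iff.mp hd).unique (hasDerivAt_const s0 (0:ℝ))
  have hn := unit_sq (hunit s0)
  simp only [cross, Complex.mul_re, Complex.mul_im, Complex.ofReal_re, Complex.ofReal_im,
    Complex.I_re, Complex.I_im] at h3
  apply hκ s0
  have : κ s0 * ((T s0).re * (T s0).re + (T s0).im * (T s0).im) = 0 := by linarith
  rw [hn] at this
  linarith


theorem eps_const {X : Type*} (h : ℝ → X) (ε : ℝ) (hε : 0 < ε)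
    (hh : ∀ s t, |s - t| < ε → h s = h t) : ∀ t, h t = h 0 := by
  have key : ∀ n : ℕ, ∀ t, |t| < (n + 1) * ε → h t = h 0 := by
    intro n
    induction n with
    | zero =>
      intro t ht
      apply hh
      simpa using ht
    | succ n ih =>
      intro t ht
      have hn : (0:ℝ) < (n:ℝ) + 1 := by positivity
      have hn2 : (0:ℝ) < (n:ℝ) + 2 := by positivity
      push_cast at ht
      have e1 : t - t * ((n + 1) / (n + 2)) = t / (n + 2) := by field_simp; ring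
      have h1 : |t * ((n + 1) / (n + 2))| < (n + 1) * ε := by
        rw [abs_mul, abs_of_nonneg (by positivity : (0:ℝ) ≤ (n + 1) / (n + 2))]
        have : |t| * ((n + 1) / (n + 2)) < ((n:ℝ) + 1 + 1) * ε * ((n + 1) / (n + 2)) :=
          mul_lt_mul_of_pos_right ht (by positivity)
        have e : ((n:ℝ) + 1 + 1) * ε * ((n + 1) / (n + 2)) = (n + 1) * ε := by
          field_simp; ring
        linarith
      have h2 : |t - t * ((n + 1) / (n + 2))| < ε := by
        rw [e1, abs_div, abs_of_pos hn2, div_lt_iff₀ hn2]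
        linarith
      rw [hh _ _ h2]
      exact ih _ h1
  intro t
  obtain ⟨n, hn⟩ := exists_nat_gt (|t| / ε)
  apply key n
  rw [div_lt_iff₀ hε] at hn
  have : (0:ℝ) ≤ ε := hε.le
  nlinarith

theorem affine_unique (γ T : ℝ → ℂ) (κ : ℝ → ℝ)
    (hγ : ∀ s, HasDerivAt γ (T s) s) (hunit : ∀ s, ‖T s‖ = 1)
    (hT : ∀ s, HasDerivAt T ((κ s : ℂ) * (Complex.I * T s)) s) (hκ : ∀ s, κ s ≠ 0)
    (a b : ℝ) (hab : a < b) (α β δ b1 b2 α' β' δ' b1' b2' : ℝ)
    (h : ∀ t ∈ Set.Ioo a b,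
        α * (γ t).re + β * (γ t).im + b1 = α' * (γ t).re + β' * (γ t).im + b1' ∧
        β * (γ t).re + δ * (γ t).im + b2 = β' * (γ t).re + δ' * (γ t).im + b2') :
    α = α' ∧ β = β' ∧ δ = δ' ∧ b1 = b1' ∧ b2 = b2' := by
  obtain ⟨s0, h0, s1, h1, s2, h2, hD⟩ := exists_noncollinear γ T κ hγ hunit hT hκ a b hab
  obtain ⟨e0, f0⟩ := h s0 h0
  obtain ⟨e1, f1⟩ := h s1 h1
  obtain ⟨e2, f2⟩ := h s2 h2
  simp only [cross, Complex.sub_re, Complex.sub_im] at hD
  have hα : α = α' := by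
    have : (α - α') * (((γ s1).re - (γ s0).re) * ((γ s2).im - (γ s0).im) -
        ((γ s1).im - (γ s0).im) * ((γ s2).re - (γ s0).re)) = 0 := by
      linear_combination ((γ s2).im - (γ s0).im) * (e1 - e0) - ((γ s1).im - (γ s0).im) * (e2 - e0)
    rcases mul_eq_zero.mp this with h | h
    · linarith
    · exact absurd h hD
  have hβ : β = β' := by
    have : (β - β') * (((γ s1).re - (γ s0).re) * ((γ s2).im - (γ s0).im) -
        ((γ s1).im - (γ s0).im) * ((γ s2).re - (γ s0).re)) = 0 := by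
      linear_combination ((γ s1).re - (γ s0).re) * (e2 - e0) - ((γ s2).re - (γ s0).re) * (e1 - e0)
    rcases mul_eq_zero.mp this with h | h
    · linarith
    · exact absurd h hD
  have hδ : δ = δ' := by
    have : (δ - δ') * (((γ s1).re - (γ s0).re) * ((γ s2).im - (γ s0).im) -
        ((γ s1).im - (γ s0).im) * ((γ s2).re - (γ s0).re)) = 0 := by
      linear_combination ((γ s1).re - (γ s0).re) * (f2 - f0) - ((γ s2).re - (γ s0).re) * (f1 - f0)
    rcases mul_eq_zero.mp this with h | h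
    · linarith
    · exact absurd h hD
  subst hα hβ hδ
  exact ⟨rfl, rfl, rfl, by linarith, by linarith⟩

theorem global_affine (γ T w : ℝ → ℂ) (κ : ℝ → ℝ)
    (hγ : ∀ s, HasDerivAt γ (T s) s) (hunit : ∀ s, ‖T s‖ = 1)
    (hT : ∀ s, HasDerivAt T ((κ s : ℂ) * (Complex.I * T s)) s) (hκ : ∀ s, κ s ≠ 0)
    (ε : ℝ) (hε : 0 < ε)
    (hstar : ∀ s t, |s - t| < ε → dot (γ t - γ s) (w s + w t) = 0) :
    ∃ α β δ b1 b2 : ℝ, ∀ t, (w t).re = α * (γ t).re + β * (γ t).im + b1 ∧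
      (w t).im = β * (γ t).re + δ * (γ t).im + b2 := by
  have hloc : ∀ s, ∃ p : ℝ × ℝ × ℝ × ℝ × ℝ, ∀ t ∈ Set.Ioo (s - ε / 2) (s + ε / 2),
      (w t).re = p.1 * (γ t).re + p.2.1 * (γ t).im + p.2.2.2.1 ∧
      (w t).im = p.2.1 * (γ t).re + p.2.2.1 * (γ t).im + p.2.2.2.2 := by
    intro s
    obtain ⟨s0, h0, s1, h1, s2, h2, hD⟩ :=
      exists_noncollinear γ T κ hγ hunit hT hκ (s - ε / 2) (s + ε / 2) (by linarith)
    obtain ⟨α, β, δ, b1, b2, h⟩ :=
      local_affine (Set.Ioo (s - ε / 2) (s + ε / 2)) γ w s0 s1 s2 h0 h1 h2 hD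
      (by
        intro u hu t ht
        apply hstar
        rw [abs_lt]; constructor <;> linarith [hu.1, hu.2, ht.1, ht.2])
    exact ⟨(α, β, δ, b1, b2), h⟩
  choose p hp using hloc
  have hconst : ∀ t, p t = p 0 := by
    apply eps_const p (ε / 2) (by linarith)
    intro s t hst
    have hab : max s t - ε / 2 < min s t + ε / 2 := by
      rw [abs_lt] at hst
      rcases le_total s t with h | h
      · rw [max_eq_right h, min_eq_left h]; linarith
      · rw [max_eq_left h, min_eq_right h]; linarith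
    obtain ⟨e1, e2, e3, e4, e5⟩ := affine_unique γ T κ hγ hunit hT hκ _ _ hab
      (p s).1 (p s).2.1 (p s).2.2.1 (p s).2.2.2.1 (p s).2.2.2.2
      (p t).1 (p t).2.1 (p t).2.2.1 (p t).2.2.2.1 (p t).2.2.2.2
      (by
        intro u hu
        have hu1 : u ∈ Set.Ioo (s - ε / 2) (s + ε / 2) :=
          ⟨by linarith [hu.1, le_max_left s t], by linarith [hu.2, min_le_left s t]⟩
        have hu2 : u ∈ Set.Ioo (t - ε / 2) (t + ε / 2) :=
          ⟨by linarith [hu.1, le_max_right s t], by linarith [hu.2, min_le_right s t]⟩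
        obtain ⟨a1, a2⟩ := hp s u hu1
        obtain ⟨c1, c2⟩ := hp t u hu2
        exact ⟨by rw [← a1, ← c1], by rw [← a2, ← c2]⟩)
    exact Prod.ext e1 (Prod.ext e2 (Prod.ext e3 (Prod.ext e4 e5)))
  refine ⟨(p 0).1, (p 0).2.1, (p 0).2.2.1, (p 0).2.2.2.1, (p 0).2.2.2.2, ?_⟩
  intro t
  have := hp t t ⟨by linarith, by linarith⟩
  rw [hconst t] at this
  exact this

end Vale.Agent.Lib.P097
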