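import Mathlib
import Vale.Agent.Lib.P097.Basic

namespace Vale.Agent.Lib.P097

open Complex

theorem anti_lemma (S : Set ℝ) (g ω : ℝ → ℂ) (s1 s2 : ℝ) (h1 : s1 ∈ S) (h2 : s2 ∈ S)
    (hD : cross (g s1) (g s2) ≠ 0)
    (hanti : ∀ s ∈ S, ∀ t ∈ S, dot (g t) (ω s) = -dot (g s) (ω t)) :
    ∃ μ : ℝ, ∀ t ∈ S, (ω t).re = -(μ * (g t).im) ∧ (ω t).im = μ * (g t).re := by
  have R11 := hanti s1 h1 s1 h1
  have R22 := hanti s2 h2 s2 h2
  have R12 := hanti s1 h1 s2 h2
  simp only [dot, cross] at *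
  have hN1 : (g s1).re ^ 2 + (g s1).im ^ 2 ≠ 0 := by
    intro h
    have e1 : (g s1).re = 0 := by nlinarith [sq_nonneg (g s1).re, sq_nonneg (g s1).im]
    have e2 : (g s1).im = 0 := by nlinarith [sq_nonneg (g s1).re, sq_nonneg (g s1).im]
    apply hD
    rw [e1, e2]; ring
  have hN2 : (g s2).re ^ 2 + (g s2).im ^ 2 ≠ 0 := by
    intro h
    have e1 : (g s2).re = 0 := by nlinarith [sq_nonneg (g s2).re, sq_nonneg (g s2).im]
    have e2 : (g s2).im = 0 := by nlinarith [sq_nonneg (g s2).re, sq_nonneg (g s2).im]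
    apply hD
    rw [e1, e2]; ring
  -- ω s1 = lam1 * J (g s1), ω s2 = lam2 * J (g s2)
  obtain ⟨lam1, hlam1⟩ : ∃ lam1 : ℝ, lam1 =
      (-(ω s1).re * (g s1).im + (ω s1).im * (g s1).re) / ((g s1).re ^ 2 + (g s1).im ^ 2) :=
    ⟨_, rfl⟩
  obtain ⟨lam2, hlam2⟩ : ∃ lam2 : ℝ, lam2 =
      (-(ω s2).re * (g s2).im + (ω s2).im * (g s2).re) / ((g s2).re ^ 2 + (g s2).im ^ 2) :=
    ⟨_, rfl⟩
  have hm1 : lam1 * ((g s1).re ^ 2 + (g s1).im ^ 2) =
      -(ω s1).re * (g s1).im + (ω s1).im * (g s1).re := by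
    rw [hlam1]; exact div_mul_cancel₀ _ hN1
  have hm2 : lam2 * ((g s2).re ^ 2 + (g s2).im ^ 2) =
      -(ω s2).re * (g s2).im + (ω s2).im * (g s2).re := by
    rw [hlam2]; exact div_mul_cancel₀ _ hN2
  have ha1 : (ω s1).re = -(lam1 * (g s1).im) := by
    have : ((ω s1).re + lam1 * (g s1).im) * ((g s1).re ^ 2 + (g s1).im ^ 2) = 0 := by
      linear_combination (g s1).im * hm1 + (g s1).re / 2 * R11
    rcases mul_eq_zero.mp this with h | h
    · linarith
    · exact absurd h hN1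
  have hb1 : (ω s1).im = lam1 * (g s1).re := by
    have : ((ω s1).im - lam1 * (g s1).re) * ((g s1).re ^ 2 + (g s1).im ^ 2) = 0 := by
      linear_combination (-(g s1).re) * hm1 + (g s1).im / 2 * R11
    rcases mul_eq_zero.mp this with h | h
    · linarith
    · exact absurd h hN1
  have ha2 : (ω s2).re = -(lam2 * (g s2).im) := by
    have : ((ω s2).re + lam2 * (g s2).im) * ((g s2).re ^ 2 + (g s2).im ^ 2) = 0 := by
      linear_combination (g s2).im * hm2 + (g s2).re / 2 * R22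
    rcases mul_eq_zero.mp this with h | h
    · linarith
    · exact absurd h hN2
  have hb2 : (ω s2).im = lam2 * (g s2).re := by
    have : ((ω s2).im - lam2 * (g s2).re) * ((g s2).re ^ 2 + (g s2).im ^ 2) = 0 := by
      linear_combination (-(g s2).re) * hm2 + (g s2).im / 2 * R22
    rcases mul_eq_zero.mp this with h | h
    · linarith
    · exact absurd h hN2
  have hlam : lam1 = lam2 := by
    have : (lam1 - lam2) * ((g s1).re * (g s2).im - (g s1).im * (g s2).re) = 0 := by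
      rw [ha1, hb1, ha2, hb2] at R12
      linear_combination R12
    rcases mul_eq_zero.mp this with h | h
    · linarith
    · exact absurd h hD
  refine ⟨lam1, ?_⟩
  intro t ht
  have E1 := hanti s1 h1 t ht
  have E2 := hanti s2 h2 t ht
  rw [ha1, hb1] at E1
  rw [ha2, hb2, ← hlam] at E2
  constructor
  · have : ((ω t).re + lam1 * (g t).im) * ((g s1).re * (g s2).im - (g s1).im * (g s2).re) = 0 := by
      linear_combination (g s2).im * E1 - (g s1).im * E2
    rcases mul_eq_zero.mp this with h | h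
    · linarith
    · exact absurd h hD
  · have : ((ω t).im - lam1 * (g t).re) * ((g s1).re * (g s2).im - (g s1).im * (g s2).re) = 0 := by
      linear_combination (g s1).re * E2 - (g s2).re * E1
    rcases mul_eq_zero.mp this with h | h
    · linarith
    · exact absurd h hD

theorem local_killing (S : Set ℝ) (γ v : ℝ → ℂ) (s0 s1 s2 : ℝ) (h0 : s0 ∈ S) (h1 : s1 ∈ S)
    (h2 : s2 ∈ S) (hD : cross (γ s1 - γ s0) (γ s2 - γ s0) ≠ 0)
    (hstar : ∀ s ∈ S, ∀ t ∈ S, dot (γ t - γ s) (v s - v t) = 0) :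
    ∃ μ c1 c2 : ℝ, ∀ t ∈ S, (v t).re = -(μ * (γ t).im) + c1 ∧
      (v t).im = μ * (γ t).re + c2 := by
  obtain ⟨μ, h⟩ := anti_lemma S (fun t => γ t - γ s0) (fun t => v t - v s0) s1 s2 h1 h2 hD
    (by
      intro s hs t ht
      have a := hstar s hs t ht
      have b := hstar s0 h0 t ht
      have c := hstar s0 h0 s hs
      simp only [dot, Complex.sub_re, Complex.sub_im] at *
      linear_combination a - b - c)
  refine ⟨μ, (v s0).re + μ * (γ s0).im, (v s0).im - μ * (γ s0).re, ?_⟩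
  intro t ht
  obtain ⟨e1, e2⟩ := h t ht
  simp only [Complex.sub_re, Complex.sub_im] at e1 e2
  constructor <;> linarith

theorem killing_unique (γ T : ℝ → ℂ) (κ : ℝ → ℝ)
    (hγ : ∀ s, HasDerivAt γ (T s) s) (hunit : ∀ s, ‖T s‖ = 1)
    (hT : ∀ s, HasDerivAt T ((κ s : ℂ) * (Complex.I * T s)) s) (hκ : ∀ s, κ s ≠ 0)
    (a b : ℝ) (hab : a < b) (μ c1 c2 μ' c1' c2' : ℝ)
    (h : ∀ t ∈ Set.Ioo a b,
        -(μ * (γ t).im) + c1 = -(μ' * (γ t).im) + c1' ∧
        μ * (γ t).re + c2 = μ' * (γ t).re + c2') :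
    μ = μ' ∧ c1 = c1' ∧ c2 = c2' := by
  obtain ⟨s0, h0, s1, h1, s2, h2, hD⟩ := exists_noncollinear γ T κ hγ hunit hT hκ a b hab
  obtain ⟨e0, f0⟩ := h s0 h0
  obtain ⟨e1, f1⟩ := h s1 h1
  obtain ⟨e2, f2⟩ := h s2 h2
  simp only [cross, Complex.sub_re, Complex.sub_im] at hD
  have hμ : μ = μ' := by
    by_contra hne
    have hne' : μ - μ' ≠ 0 := sub_ne_zero.mpr hne
    have y1 : (γ s1).im - (γ s0).im = 0 := by
      have : (μ - μ') * ((γ s1).im - (γ s0).im) = 0 := by linear_combination e0 - e1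
      rcases mul_eq_zero.mp this with h | h
      · exact absurd h hne'
      · exact h
    have x1 : (γ s1).re - (γ s0).re = 0 := by
      have : (μ - μ') * ((γ s1).re - (γ s0).re) = 0 := by linear_combination f1 - f0
      rcases mul_eq_zero.mp this with h | h
      · exact absurd h hne'
      · exact h
    apply hD
    rw [x1, y1]; ring
  subst hμ
  exact ⟨rfl, by linarith, by linarith⟩

theorem global_killing (γ T v : ℝ → ℂ) (κ : ℝ → ℝ)
    (hγ : ∀ s, HasDerivAt γ (T s) s) (hunit : ∀ s, ‖T s‖ = 1)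
    (hT : ∀ s, HasDerivAt T ((κ s : ℂ) * (Complex.I * T s)) s) (hκ : ∀ s, κ s ≠ 0)
    (ε : ℝ) (hε : 0 < ε)
    (hstar : ∀ s t, |s - t| < ε → dot (γ t - γ s) (v s - v t) = 0) :
    ∃ μ c1 c2 : ℝ, ∀ t, (v t).re = -(μ * (γ t).im) + c1 ∧
      (v t).im = μ * (γ t).re + c2 := by
  have hloc : ∀ s, ∃ p : ℝ × ℝ × ℝ, ∀ t ∈ Set.Ioo (s - ε / 2) (s + ε / 2),
      (v t).re = -(p.1 * (γ t).im) + p.2.1 ∧
      (v t).im = p.1 * (γ t).re + p.2.2 := by
    intro s
    obtain ⟨s0, h0, s1, h1, s2, h2, hD⟩ :=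
      exists_noncollinear γ T κ hγ hunit hT hκ (s - ε / 2) (s + ε / 2) (by linarith)
    obtain ⟨μ, c1, c2, h⟩ :=
      local_killing (Set.Ioo (s - ε / 2) (s + ε / 2)) γ v s0 s1 s2 h0 h1 h2 hD
      (by
        intro u hu t ht
        apply hstar
        rw [abs_lt]; constructor <;> linarith [hu.1, hu.2, ht.1, ht.2])
    exact ⟨(μ, c1, c2), h⟩
  choose p hp using hloc
  have hconst : ∀ t, p t = p 0 := by
    apply eps_const p (ε / 2) (by linarith)
    intro s t hst
    have hab : max s t - ε / 2 < min s t + ε / 2 := by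
      rw [abs_lt] at hst
      rcases le_total s t with h | h
      · rw [max_eq_right h, min_eq_left h]; linarith
      · rw [max_eq_left h, min_eq_right h]; linarith
    obtain ⟨e1, e2, e3⟩ := killing_unique γ T κ hγ hunit hT hκ _ _ hab
      (p s).1 (p s).2.1 (p s).2.2 (p t).1 (p t).2.1 (p t).2.2
      (by
        intro u hu
        have hu1 : u ∈ Set.Ioo (s - ε / 2) (s + ε / 2) :=
          ⟨by linarith [hu.1, le_max_left s t], by linarith [hu.2, min_le_left s t]⟩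
        have hu2 : u ∈ Set.Ioo (t - ε / 2) (t + ε / 2) :=
          ⟨by linarith [hu.1, le_max_right s t], by linarith [hu.2, min_le_right s t]⟩
        obtain ⟨a1, a2⟩ := hp s u hu1
        obtain ⟨c1, c2⟩ := hp t u hu2
        exact ⟨by rw [← a1, ← c1], by rw [← a2, ← c2]⟩)
    exact Prod.ext e1 (Prod.ext e2 e3)
  refine ⟨(p 0).1, (p 0).2.1, (p 0).2.2, ?_⟩
  intro t
  have := hp t t ⟨by linarith, by linarith⟩
  rw [hconst t] at this
  exact this

end Vale.Agent.Lib.P097
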