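import Mathlib
import Vale.Agent.Lib.P097.Basic

namespace Vale.Agent.Lib.P097

open Complex

theorem exists_max_dot (γ T : ℝ → ℂ) (L : ℝ) (hL : 0 < L) (hper : ∀ s, γ (s + L) = γ s)
    (hγ : ∀ s, HasDerivAt γ (T s) s) (v : ℂ) :
    ∃ t, (∀ s, dot (γ s) v ≤ dot (γ t) v) ∧ dot (T t) v = 0 := by
  have hcont : Continuous (fun s => dot (γ s) v) :=
    continuous_iff_continuousAt.mpr (fun s => (hasDerivAt_dot_left (hγ s) v).continuousAt)
  obtain ⟨t, ht, hmax⟩ := isCompact_Icc.exists_isMaxOn (Set.nonempty_Icc.mpr hL.le)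
    hcont.continuousOn
  have hperiodic : Function.Periodic (fun s => dot (γ s) v) L := fun s => by
    show dot (γ (s + L)) v = dot (γ s) v
    rw [hper s]
  have hglob : ∀ s, dot (γ s) v ≤ dot (γ t) v := by
    intro s
    obtain ⟨y, hy, hfy⟩ := hperiodic.exists_mem_Ico₀ hL s
    have hfy' : dot (γ s) v = dot (γ y) v := hfy
    rw [hfy']
    exact hmax ⟨hy.1, hy.2.le⟩
  refine ⟨t, hglob, ?_⟩
  have hloc : IsLocalMax (fun s => dot (γ s) v) t := Filter.Eventually.of_forall hglob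
  exact hloc.hasDerivAt_eq_zero (hasDerivAt_dot_left (hγ t) v)

theorem negdef_of_tangent (γ T : ℝ → ℂ) (L : ℝ) (hL : 0 < L) (hper : ∀ s, γ (s + L) = γ s)
    (hγ : ∀ s, HasDerivAt γ (T s) s) (α β δ : ℝ)
    (hQT : ∀ t, α * (T t).re ^ 2 + 2 * β * (T t).re * (T t).im + δ * (T t).im ^ 2 < 0) :
    ∀ v1 v2 : ℝ, (v1 ≠ 0 ∨ v2 ≠ 0) → α * v1 ^ 2 + 2 * β * v1 * v2 + δ * v2 ^ 2 < 0 := by
  intro v1 v2 hv
  obtain ⟨t, -, ht⟩ := exists_max_dot γ T L hL hper hγ (⟨-v2, v1⟩ : ℂ)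
  simp only [dot] at ht
  have hN : 0 < v1 ^ 2 + v2 ^ 2 := by
    rcases hv with h | h
    · have := sq_pos_of_ne_zero h
      have := sq_nonneg v2
      linarith
    · have := sq_pos_of_ne_zero h
      have := sq_nonneg v1
      linarith
  have h1 : (T t).re * (v1 ^ 2 + v2 ^ 2) = v1 * ((T t).re * v1 + (T t).im * v2) := by
    linear_combination (-v2) * ht
  have h2 : (T t).im * (v1 ^ 2 + v2 ^ 2) = v2 * ((T t).re * v1 + (T t).im * v2) := by
    linear_combination v1 * ht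
  by_contra hcon
  push Not at hcon
  have key : (α * (T t).re ^ 2 + 2 * β * (T t).re * (T t).im + δ * (T t).im ^ 2) *
      (v1 ^ 2 + v2 ^ 2) ^ 2 =
      ((T t).re * v1 + (T t).im * v2) ^ 2 * (α * v1 ^ 2 + 2 * β * v1 * v2 + δ * v2 ^ 2) := by
    have : (α * (T t).re ^ 2 + 2 * β * (T t).re * (T t).im + δ * (T t).im ^ 2) *
        (v1 ^ 2 + v2 ^ 2) ^ 2 = α * ((T t).re * (v1 ^ 2 + v2 ^ 2)) ^ 2 +
        2 * β * ((T t).re * (v1 ^ 2 + v2 ^ 2)) * ((T t).im * (v1 ^ 2 + v2 ^ 2)) +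
        δ * ((T t).im * (v1 ^ 2 + v2 ^ 2)) ^ 2 := by ring
    rw [this, h1, h2]; ring
  have hl : (α * (T t).re ^ 2 + 2 * β * (T t).re * (T t).im + δ * (T t).im ^ 2) *
      (v1 ^ 2 + v2 ^ 2) ^ 2 < 0 := mul_neg_of_neg_of_pos (hQT t) (by positivity)
  have hr : 0 ≤ ((T t).re * v1 + (T t).im * v2) ^ 2 *
      (α * v1 ^ 2 + 2 * β * v1 * v2 + δ * v2 ^ 2) := mul_nonneg (sq_nonneg _) hcon
  linarith


/-- at a critical point of the linear functional with gradient `A u`, the curve point is `c ± u` -/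
theorem crit_point (γ T : ℝ → ℂ) (hunit : ∀ s, ‖T s‖ = 1)
    (α β δ c1 c2 ρ : ℝ) (hρ : 0 < ρ) (hΔ : α * δ - β ^ 2 ≠ 0)
    (hG : ∀ t, (T t).re * (α * ((γ t).re - c1) + β * ((γ t).im - c2)) +
      (T t).im * (β * ((γ t).re - c1) + δ * ((γ t).im - c2)) = 0)
    (hQc : ∀ t, α * ((γ t).re - c1) ^ 2 + 2 * β * ((γ t).re - c1) * ((γ t).im - c2) +
      δ * ((γ t).im - c2) ^ 2 = -ρ)
    (u1 u2 : ℝ) (hu : α * u1 ^ 2 + 2 * β * u1 * u2 + δ * u2 ^ 2 = -ρ) (t : ℝ)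
    (ht : (T t).re * (α * u1 + β * u2) + (T t).im * (β * u1 + δ * u2) = 0) :
    ((γ t).re - c1 = u1 ∧ (γ t).im - c2 = u2) ∨ ((γ t).re - c1 = -u1 ∧ (γ t).im - c2 = -u2) := by
  have hn := unit_sq (hunit t)
  have hg := hG t
  have hq := hQc t
  generalize (γ t).re - c1 = y1 at *
  generalize (γ t).im - c2 = y2 at *
  generalize (T t).re = p at *
  generalize (T t).im = q at *
  -- cross (A y) (A u) = 0
  have hc1 : p * ((α * y1 + β * y2) * (β * u1 + δ * u2) - (β * y1 + δ * y2) * (α * u1 + β * u2)) = 0 := by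
    linear_combination (β * u1 + δ * u2) * hg - (β * y1 + δ * y2) * ht
  have hc2 : q * ((α * y1 + β * y2) * (β * u1 + δ * u2) - (β * y1 + δ * y2) * (α * u1 + β * u2)) = 0 := by
    linear_combination (α * y1 + β * y2) * ht - (α * u1 + β * u2) * hg
  have hc : (α * y1 + β * y2) * (β * u1 + δ * u2) - (β * y1 + δ * y2) * (α * u1 + β * u2) = 0 := by
    linear_combination p * hc1 + q * hc2 -
      ((α * y1 + β * y2) * (β * u1 + δ * u2) - (β * y1 + δ * y2) * (α * u1 + β * u2)) * hn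
  have hcr : y1 * u2 - y2 * u1 = 0 := by
    have : (α * δ - β ^ 2) * (y1 * u2 - y2 * u1) = 0 := by linear_combination hc
    rcases mul_eq_zero.mp this with h | h
    · exact absurd h hΔ
    · exact h
  have hN : 0 < u1 ^ 2 + u2 ^ 2 := by
    by_contra hcon
    have h1 : u1 = 0 := by nlinarith [sq_nonneg u1, sq_nonneg u2]
    have h2 : u2 = 0 := by nlinarith [sq_nonneg u1, sq_nonneg u2]
    rw [h1, h2] at hu
    linarith
  have e1 : y1 * (u1 ^ 2 + u2 ^ 2) = (y1 * u1 + y2 * u2) * u1 := by linear_combination u2 * hcr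
  have e2 : y2 * (u1 ^ 2 + u2 ^ 2) = (y1 * u1 + y2 * u2) * u2 := by linear_combination (-u1) * hcr
  have hsq : (y1 * u1 + y2 * u2) ^ 2 = (u1 ^ 2 + u2 ^ 2) ^ 2 := by
    have h3 : (α * y1 ^ 2 + 2 * β * y1 * y2 + δ * y2 ^ 2) * (u1 ^ 2 + u2 ^ 2) ^ 2 =
        (y1 * u1 + y2 * u2) ^ 2 * (α * u1 ^ 2 + 2 * β * u1 * u2 + δ * u2 ^ 2) := by
      have : (α * y1 ^ 2 + 2 * β * y1 * y2 + δ * y2 ^ 2) * (u1 ^ 2 + u2 ^ 2) ^ 2 =
          α * (y1 * (u1 ^ 2 + u2 ^ 2)) ^ 2 +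
          2 * β * (y1 * (u1 ^ 2 + u2 ^ 2)) * (y2 * (u1 ^ 2 + u2 ^ 2)) +
          δ * (y2 * (u1 ^ 2 + u2 ^ 2)) ^ 2 := by ring
      rw [this, e1, e2]; ring
    rw [hq, hu] at h3
    have h4 : ρ * ((y1 * u1 + y2 * u2) ^ 2 - (u1 ^ 2 + u2 ^ 2) ^ 2) = 0 := by
      linear_combination h3
    rcases mul_eq_zero.mp h4 with h | h
    · exact absurd h hρ.ne'
    · linarith
  have hcases : y1 * u1 + y2 * u2 = u1 ^ 2 + u2 ^ 2 ∨ y1 * u1 + y2 * u2 = -(u1 ^ 2 + u2 ^ 2) :=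
    sq_eq_sq_iff_eq_or_eq_neg.mp hsq
  rcases hcases with h | h
  · left
    rw [h] at e1 e2
    constructor
    · have : (y1 - u1) * (u1 ^ 2 + u2 ^ 2) = 0 := by linear_combination e1
      rcases mul_eq_zero.mp this with h' | h'
      · linarith
      · exact absurd h' hN.ne'
    · have : (y2 - u2) * (u1 ^ 2 + u2 ^ 2) = 0 := by linear_combination e2
      rcases mul_eq_zero.mp this with h' | h'
      · linarith
      · exact absurd h' hN.ne'
  · right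
    rw [h] at e1 e2
    constructor
    · have : (y1 + u1) * (u1 ^ 2 + u2 ^ 2) = 0 := by linear_combination e1
      rcases mul_eq_zero.mp this with h' | h'
      · linarith
      · exact absurd h' hN.ne'
    · have : (y2 + u2) * (u1 ^ 2 + u2 ^ 2) = 0 := by linear_combination e2
      rcases mul_eq_zero.mp this with h' | h'
      · linarith
      · exact absurd h' hN.ne'


theorem surj_ellipse (γ T : ℝ → ℂ) (L : ℝ) (hL : 0 < L) (hper : ∀ s, γ (s + L) = γ s)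
    (hγ : ∀ s, HasDerivAt γ (T s) s) (hunit : ∀ s, ‖T s‖ = 1)
    (α β δ c1 c2 ρ : ℝ) (hρ : 0 < ρ) (hΔ : α * δ - β ^ 2 ≠ 0)
    (hG : ∀ t, (T t).re * (α * ((γ t).re - c1) + β * ((γ t).im - c2)) +
      (T t).im * (β * ((γ t).re - c1) + δ * ((γ t).im - c2)) = 0)
    (hQc : ∀ t, α * ((γ t).re - c1) ^ 2 + 2 * β * ((γ t).re - c1) * ((γ t).im - c2) +
      δ * ((γ t).im - c2) ^ 2 = -ρ)
    (u1 u2 : ℝ) (hu : α * u1 ^ 2 + 2 * β * u1 * u2 + δ * u2 ^ 2 = -ρ) :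
    ∃ t, (γ t).re - c1 = u1 ∧ (γ t).im - c2 = u2 := by
  obtain ⟨t1, hmax, ht1⟩ := exists_max_dot γ T L hL hper hγ
    (⟨α * u1 + β * u2, β * u1 + δ * u2⟩ : ℂ)
  obtain ⟨t2, hmin, ht2⟩ := exists_max_dot γ T L hL hper hγ
    (⟨-(α * u1 + β * u2), -(β * u1 + δ * u2)⟩ : ℂ)
  simp only [dot] at ht1 ht2 hmax hmin
  have ht2' : (T t2).re * (α * u1 + β * u2) + (T t2).im * (β * u1 + δ * u2) = 0 := by linarith
  rcases crit_point γ T hunit α β δ c1 c2 ρ hρ hΔ hG hQc u1 u2 hu t1 ht1 with h1 | h1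
  · exact ⟨t1, h1⟩
  rcases crit_point γ T hunit α β δ c1 c2 ρ hρ hΔ hG hQc u1 u2 hu t2 ht2' with h2 | h2
  · exact ⟨t2, h2⟩
  exfalso
  have hconst : ∀ s, (γ s).re * (α * u1 + β * u2) + (γ s).im * (β * u1 + δ * u2) =
      (γ t1).re * (α * u1 + β * u2) + (γ t1).im * (β * u1 + δ * u2) := by
    intro s
    have a := hmax s
    have b := hmin s
    have e1 : (γ t1).re = (γ t2).re := by linarith [h1.1, h2.1]
    have e2 : (γ t1).im = (γ t2).im := by linarith [h1.2, h2.2]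
    rw [← e1, ← e2] at b
    linarith
  have hder : ∀ s, (T s).re * (α * u1 + β * u2) + (T s).im * (β * u1 + δ * u2) = 0 := by
    intro s
    have hd := hasDerivAt_dot_left (hγ s) (⟨α * u1 + β * u2, β * u1 + δ * u2⟩ : ℂ)
    have h0 : (fun t => dot (γ t) (⟨α * u1 + β * u2, β * u1 + δ * u2⟩ : ℂ)) =
        fun _ => (γ t1).re * (α * u1 + β * u2) + (γ t1).im * (β * u1 + δ * u2) := by
      funext s; simp only [dot]; exact hconst s
    rw [h0] at hd
    have := hd.unique (hasDerivAt_const s _)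
    simpa [dot] using this
  obtain ⟨t0, -, ht0⟩ := exists_max_dot γ T L hL hper hγ
    (⟨-(β * u1 + δ * u2), α * u1 + β * u2⟩ : ℂ)
  simp only [dot] at ht0
  have hd0 := hder t0
  have hn := unit_sq (hunit t0)
  have hv : u1 * (α * u1 + β * u2) + u2 * (β * u1 + δ * u2) = -ρ := by linear_combination hu
  have hp0 : (T t0).re * ((α * u1 + β * u2) ^ 2 + (β * u1 + δ * u2) ^ 2) = 0 := by
    linear_combination (α * u1 + β * u2) * hd0 - (β * u1 + δ * u2) * ht0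
  have hq0 : (T t0).im * ((α * u1 + β * u2) ^ 2 + (β * u1 + δ * u2) ^ 2) = 0 := by
    linear_combination (β * u1 + δ * u2) * hd0 + (α * u1 + β * u2) * ht0
  have hvv : (α * u1 + β * u2) ^ 2 + (β * u1 + δ * u2) ^ 2 ≠ 0 := by
    intro h
    have h1 : α * u1 + β * u2 = 0 := by
      nlinarith [sq_nonneg (α * u1 + β * u2), sq_nonneg (β * u1 + δ * u2)]
    have h2 : β * u1 + δ * u2 = 0 := by
      nlinarith [sq_nonneg (α * u1 + β * u2), sq_nonneg (β * u1 + δ * u2)]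
    rw [h1, h2] at hv
    linarith
  have hp : (T t0).re = 0 := by
    rcases mul_eq_zero.mp hp0 with h | h
    · exact h
    · exact absurd h hvv
  have hq : (T t0).im = 0 := by
    rcases mul_eq_zero.mp hq0 with h | h
    · exact h
    · exact absurd h hvv
  rw [hp, hq] at hn
  norm_num at hn

end Vale.Agent.Lib.P097
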