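import Mathlib
import Vale.Agent.Lib.P097.Ellipse

namespace Vale.Agent.Lib.P097

open Complex

theorem ellipse_of_affine (γ T : ℝ → ℂ) (κ f : ℝ → ℝ) (L : ℝ) (hL : 0 < L)
    (hper : ∀ s, γ (s + L) = γ s)
    (hγ : ∀ s, HasDerivAt γ (T s) s) (hunit : ∀ s, ‖T s‖ = 1)
    (hT : ∀ s, HasDerivAt T ((κ s : ℂ) * (Complex.I * T s)) s) (hκ : ∀ s, 0 < κ s)
    (hf : ∀ s, 0 < f s) (α β δ b1 b2 : ℝ)
    (hw : ∀ t, -(f t * (T t).im) = α * (γ t).re + β * (γ t).im + b1 ∧
      f t * (T t).re = β * (γ t).re + δ * (γ t).im + b2) :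
    ∃ (c : ℂ) (α' β' δ' : ℝ), 0 < α' ∧ 0 < α' * δ' - β' ^ 2 ∧
      Set.range γ = {z : ℂ | α' * (z - c).re ^ 2 + 2 * β' * (z - c).re * (z - c).im
        + δ' * (z - c).im ^ 2 = 1} := by
  have hx : ∀ t, HasDerivAt (fun t => (γ t).re) (T t).re t := fun t => hasDerivAt_re (hγ t)
  have hy : ∀ t, HasDerivAt (fun t => (γ t).im) (T t).im t := fun t => hasDerivAt_im (hγ t)
  have hp : ∀ t, HasDerivAt (fun t => (T t).re) (-(κ t * (T t).im)) t := by
    intro t
    have := hasDerivAt_re (hT t)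
    simpa using this
  have hq : ∀ t, HasDerivAt (fun t => (T t).im) (κ t * (T t).re) t := by
    intro t
    have := hasDerivAt_im (hT t)
    simpa using this
  have hn : ∀ t, (T t).re * (T t).re + (T t).im * (T t).im = 1 := fun t => unit_sq (hunit t)
  have hG : ∀ t, (T t).re * (α * (γ t).re + β * (γ t).im + b1) +
      (T t).im * (β * (γ t).re + δ * (γ t).im + b2) = 0 := by
    intro t
    obtain ⟨e1, e2⟩ := hw t
    rw [← e1, ← e2]; ring
  have hQT : ∀ t, α * (T t).re ^ 2 + 2 * β * (T t).re * (T t).im + δ * (T t).im ^ 2 =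
      -(κ t * f t) := by
    intro t
    have hd : HasDerivAt (fun t => (T t).re * (α * (γ t).re + β * (γ t).im + b1) +
        (T t).im * (β * (γ t).re + δ * (γ t).im + b2))
        (-(κ t * (T t).im) * (α * (γ t).re + β * (γ t).im + b1) +
          (T t).re * (α * (T t).re + β * (T t).im) +
         (κ t * (T t).re * (β * (γ t).re + δ * (γ t).im + b2) +
          (T t).im * (β * (T t).re + δ * (T t).im))) t :=
      ((hp t).mul ((((hx t).const_mul α).add ((hy t).const_mul β)).add_const b1)).add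
        ((hq t).mul ((((hx t).const_mul β).add ((hy t).const_mul δ)).add_const b2))
    have h0 : (fun t => (T t).re * (α * (γ t).re + β * (γ t).im + b1) +
        (T t).im * (β * (γ t).re + δ * (γ t).im + b2)) = fun _ => 0 := funext hG
    rw [h0] at hd
    have h1 := hd.unique (hasDerivAt_const t (0:ℝ))
    obtain ⟨e1, e2⟩ := hw t
    rw [← e1, ← e2] at h1
    have hnt := hn t
    linear_combination h1 - κ t * f t * hnt
  have hQneg : ∀ t, α * (T t).re ^ 2 + 2 * β * (T t).re * (T t).im + δ * (T t).im ^ 2 < 0 := by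
    intro t
    rw [hQT t]
    have := mul_pos (hκ t) (hf t)
    linarith
  have hnd := negdef_of_tangent γ T L hL hper hγ α β δ hQneg
  have hα : α < 0 := by
    have := hnd 1 0 (Or.inl one_ne_zero)
    simpa using this
  have hΔ : 0 < α * δ - β ^ 2 := by
    have h1 := hnd β (-α) (Or.inr (neg_ne_zero.mpr hα.ne))
    by_contra hc
    push Not at hc
    have := mul_nonneg_of_nonpos_of_nonpos hα.le hc
    nlinarith
  -- the conic is constant along the curve
  have hP : ∀ t, α * ((γ t).re * (γ t).re) + 2 * β * ((γ t).re * (γ t).im) +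
      δ * ((γ t).im * (γ t).im) + 2 * b1 * (γ t).re + 2 * b2 * (γ t).im =
      α * ((γ 0).re * (γ 0).re) + 2 * β * ((γ 0).re * (γ 0).im) +
      δ * ((γ 0).im * (γ 0).im) + 2 * b1 * (γ 0).re + 2 * b2 * (γ 0).im := by
    have hd : ∀ t, HasDerivAt (fun t => α * ((γ t).re * (γ t).re) +
        2 * β * ((γ t).re * (γ t).im) +
        δ * ((γ t).im * (γ t).im) + 2 * b1 * (γ t).re + 2 * b2 * (γ t).im) 0 t := by
      intro t
      have h1 := ((((((hx t).mul (hx t)).const_mul α).add
        (((hx t).mul (hy t)).const_mul (2 * β))).add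
        (((hy t).mul (hy t)).const_mul δ)).add ((hx t).const_mul (2 * b1))).add
        ((hy t).const_mul (2 * b2))
      have h2 : α * ((T t).re * (γ t).re + (γ t).re * (T t).re) +
          2 * β * ((T t).re * (γ t).im + (γ t).re * (T t).im) +
          δ * ((T t).im * (γ t).im + (γ t).im * (T t).im) + 2 * b1 * (T t).re +
          2 * b2 * (T t).im = 0 := by
        linear_combination 2 * hG t
      rw [h2] at h1
      exact h1
    intro t
    exact is_const_of_deriv_eq_zero (fun t => (hd t).differentiableAt) (fun t => (hd t).deriv) t 0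
  obtain ⟨c1, hc1def⟩ : ∃ c1, c1 = (β * b2 - δ * b1) / (α * δ - β ^ 2) := ⟨_, rfl⟩
  obtain ⟨c2, hc2def⟩ : ∃ c2, c2 = (β * b1 - α * b2) / (α * δ - β ^ 2) := ⟨_, rfl⟩
  have hΔne : α * δ - β ^ 2 ≠ 0 := hΔ.ne'
  have hm1 : c1 * (α * δ - β ^ 2) = β * b2 - δ * b1 := by
    rw [hc1def]; exact div_mul_cancel₀ _ hΔne
  have hm2 : c2 * (α * δ - β ^ 2) = β * b1 - α * b2 := by
    rw [hc2def]; exact div_mul_cancel₀ _ hΔne
  have hc1 : α * c1 + β * c2 = -b1 := by
    have : (α * c1 + β * c2 + b1) * (α * δ - β ^ 2) = 0 := by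
      linear_combination α * hm1 + β * hm2
    rcases mul_eq_zero.mp this with h | h
    · linarith
    · exact absurd h hΔne
  have hc2 : β * c1 + δ * c2 = -b2 := by
    have : (β * c1 + δ * c2 + b2) * (α * δ - β ^ 2) = 0 := by
      linear_combination β * hm1 + δ * hm2
    rcases mul_eq_zero.mp this with h | h
    · linarith
    · exact absurd h hΔne
  obtain ⟨K, hK⟩ : ∃ K, K = α * ((γ 0).re * (γ 0).re) + 2 * β * ((γ 0).re * (γ 0).im) +
      δ * ((γ 0).im * (γ 0).im) + 2 * b1 * (γ 0).re + 2 * b2 * (γ 0).im := ⟨_, rfl⟩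
  rw [← hK] at hP
  obtain ⟨ρ, hρdef⟩ : ∃ ρ, ρ = -(K + (α * c1 ^ 2 + 2 * β * c1 * c2 + δ * c2 ^ 2)) := ⟨_, rfl⟩
  have hQc : ∀ t, α * ((γ t).re - c1) ^ 2 + 2 * β * ((γ t).re - c1) * ((γ t).im - c2) +
      δ * ((γ t).im - c2) ^ 2 = -ρ := by
    intro t
    rw [hρdef]
    linear_combination hP t + (-2 * (γ t).re) * hc1 + (-2 * (γ t).im) * hc2
  have hG' : ∀ t, (T t).re * (α * ((γ t).re - c1) + β * ((γ t).im - c2)) +
      (T t).im * (β * ((γ t).re - c1) + δ * ((γ t).im - c2)) = 0 := by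
    intro t
    linear_combination hG t - (T t).re * hc1 - (T t).im * hc2
  have hρ : 0 < ρ := by
    by_contra hcon
    push Not at hcon
    have hall : ∀ t, (γ t).re - c1 = 0 ∧ (γ t).im - c2 = 0 := by
      intro t
      by_contra h
      have h' : (γ t).re - c1 ≠ 0 ∨ (γ t).im - c2 ≠ 0 := by
        by_contra h2
        push Not at h2
        exact h h2
      have := hnd _ _ h'
      rw [hQc t] at this
      linarith
    have h0 : (fun t => (γ t).re) = fun _ => c1 := by
      funext t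
      linarith [(hall t).1]
    have h1 : (fun t => (γ t).im) = fun _ => c2 := by
      funext t
      linarith [(hall t).2]
    have d0 := hx 0
    rw [h0] at d0
    have e0 := d0.unique (hasDerivAt_const (0:ℝ) c1)
    have d1 := hy 0
    rw [h1] at d1
    have e1 := d1.unique (hasDerivAt_const (0:ℝ) c2)
    have := hn 0
    rw [e0, e1] at this
    norm_num at this
  refine ⟨⟨c1, c2⟩, -α / ρ, -β / ρ, -δ / ρ, div_pos (neg_pos.mpr hα) hρ, ?_, ?_⟩
  · have : -α / ρ * (-δ / ρ) - (-β / ρ) ^ 2 = (α * δ - β ^ 2) / ρ ^ 2 := by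
      field_simp
    rw [this]
    exact div_pos hΔ (by positivity)
  · ext z
    simp only [Set.mem_range, Set.mem_ofPred_eq, Complex.sub_re, Complex.sub_im]
    constructor
    · rintro ⟨t, rfl⟩
      have e : -α / ρ * ((γ t).re - c1) ^ 2 + 2 * (-β / ρ) * ((γ t).re - c1) * ((γ t).im - c2) +
          -δ / ρ * ((γ t).im - c2) ^ 2 = -(α * ((γ t).re - c1) ^ 2 +
          2 * β * ((γ t).re - c1) * ((γ t).im - c2) + δ * ((γ t).im - c2) ^ 2) / ρ := by ring
      rw [e, hQc t, neg_neg, div_self hρ.ne']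
    · intro hz
      have hu : α * (z.re - c1) ^ 2 + 2 * β * (z.re - c1) * (z.im - c2) +
          δ * (z.im - c2) ^ 2 = -ρ := by
        have e : -α / ρ * (z.re - c1) ^ 2 + 2 * (-β / ρ) * (z.re - c1) * (z.im - c2) +
            -δ / ρ * (z.im - c2) ^ 2 = -(α * (z.re - c1) ^ 2 +
            2 * β * (z.re - c1) * (z.im - c2) + δ * (z.im - c2) ^ 2) / ρ := by ring
        rw [e, div_eq_iff hρ.ne'] at hz
        linarith
      obtain ⟨t, h1, h2⟩ := surj_ellipse γ T L hL hper hγ hunit α β δ c1 c2 ρ hρ hΔne hG' hQc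
        _ _ hu
      refine ⟨t, ?_⟩
      apply Complex.ext <;> linarith

end Vale.Agent.Lib.P097
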