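import Mathlib
import Vale.Agent.Lib.P097.Main
import Vale.Agent.Lib.P097.Killing

namespace Vale.Agent.Lib.P097

open Complex

theorem tangent_quadratic (γ T : ℝ → ℂ) (κ f : ℝ → ℝ)
    (hγ : ∀ s, HasDerivAt γ (T s) s) (hunit : ∀ s, ‖T s‖ = 1)
    (hT : ∀ s, HasDerivAt T ((κ s : ℂ) * (Complex.I * T s)) s)
    (α β δ b1 b2 : ℝ)
    (hw : ∀ t, -(f t * (T t).im) = α * (γ t).re + β * (γ t).im + b1 ∧
      f t * (T t).re = β * (γ t).re + δ * (γ t).im + b2) :
    ∀ t, α * (T t).re ^ 2 + 2 * β * (T t).re * (T t).im + δ * (T t).im ^ 2 =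
      -(κ t * f t) := by
  have hx : ∀ t, HasDerivAt (fun t => (γ t).re) (T t).re t := fun t => hasDerivAt_re (hγ t)
  have hy : ∀ t, HasDerivAt (fun t => (γ t).im) (T t).im t := fun t => hasDerivAt_im (hγ t)
  have hp : ∀ t, HasDerivAt (fun t => (T t).re) (-(κ t * (T t).im)) t := by
    intro t
    have := hasDerivAt_re (hT t)
    simpa using this
  have hq : ∀ t, HasDerivAt (fun t => (T t).im) (κ t * (T t).re) t := by
    intro t
    have := hasDerivAt_im (hT t)
    simpa using this
  have hn : ∀ t, (T t).re * (T t).re + (T t).im * (T t).im = 1 := fun t => unit_sq (hunit t)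
  have hG : ∀ t, (T t).re * (α * (γ t).re + β * (γ t).im + b1) +
      (T t).im * (β * (γ t).re + δ * (γ t).im + b2) = 0 := by
    intro t
    obtain ⟨e1, e2⟩ := hw t
    rw [← e1, ← e2]; ring
  intro t
  have hd : HasDerivAt (fun t => (T t).re * (α * (γ t).re + β * (γ t).im + b1) +
      (T t).im * (β * (γ t).re + δ * (γ t).im + b2))
      (-(κ t * (T t).im) * (α * (γ t).re + β * (γ t).im + b1) +
        (T t).re * (α * (T t).re + β * (T t).im) +
       (κ t * (T t).re * (β * (γ t).re + δ * (γ t).im + b2) +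
        (T t).im * (β * (T t).re + δ * (T t).im))) t :=
    ((hp t).mul ((((hx t).const_mul α).add ((hy t).const_mul β)).add_const b1)).add
      ((hq t).mul ((((hx t).const_mul β).add ((hy t).const_mul δ)).add_const b2))
  have h0 : (fun t => (T t).re * (α * (γ t).re + β * (γ t).im + b1) +
      (T t).im * (β * (γ t).re + δ * (γ t).im + b2)) = fun _ => 0 := funext hG
  rw [h0] at hd
  have h1 := hd.unique (hasDerivAt_const t (0:ℝ))
  obtain ⟨e1, e2⟩ := hw t
  rw [← e1, ← e2] at h1
  have hnt := hn t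
  linear_combination h1 - κ t * f t * hnt

theorem conic_const (γ T : ℝ → ℂ) (f : ℝ → ℝ)
    (hγ : ∀ s, HasDerivAt γ (T s) s)
    (α β δ b1 b2 : ℝ)
    (hw : ∀ t, -(f t * (T t).im) = α * (γ t).re + β * (γ t).im + b1 ∧
      f t * (T t).re = β * (γ t).re + δ * (γ t).im + b2) (t0 : ℝ) :
    ∀ t, α * ((γ t).re * (γ t).re) + 2 * β * ((γ t).re * (γ t).im) +
      δ * ((γ t).im * (γ t).im) + 2 * b1 * (γ t).re + 2 * b2 * (γ t).im =
      α * ((γ t0).re * (γ t0).re) + 2 * β * ((γ t0).re * (γ t0).im) +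
      δ * ((γ t0).im * (γ t0).im) + 2 * b1 * (γ t0).re + 2 * b2 * (γ t0).im := by
  have hx : ∀ t, HasDerivAt (fun t => (γ t).re) (T t).re t := fun t => hasDerivAt_re (hγ t)
  have hy : ∀ t, HasDerivAt (fun t => (γ t).im) (T t).im t := fun t => hasDerivAt_im (hγ t)
  have hG : ∀ t, (T t).re * (α * (γ t).re + β * (γ t).im + b1) +
      (T t).im * (β * (γ t).re + δ * (γ t).im + b2) = 0 := by
    intro t
    obtain ⟨e1, e2⟩ := hw t
    rw [← e1, ← e2]; ring
  have hd : ∀ t, HasDerivAt (fun t => α * ((γ t).re * (γ t).re) +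
      2 * β * ((γ t).re * (γ t).im) +
      δ * ((γ t).im * (γ t).im) + 2 * b1 * (γ t).re + 2 * b2 * (γ t).im) 0 t := by
    intro t
    have h1 := ((((((hx t).mul (hx t)).const_mul α).add
      (((hx t).mul (hy t)).const_mul (2 * β))).add
      (((hy t).mul (hy t)).const_mul δ)).add ((hx t).const_mul (2 * b1))).add
      ((hy t).const_mul (2 * b2))
    have h2 : α * ((T t).re * (γ t).re + (γ t).re * (T t).re) +
        2 * β * ((T t).re * (γ t).im + (γ t).re * (T t).im) +
        δ * ((T t).im * (γ t).im + (γ t).im * (T t).im) + 2 * b1 * (T t).re +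
        2 * b2 * (T t).im = 0 := by
      linear_combination 2 * hG t
    rw [h2] at h1
    exact h1
  intro t
  exact is_const_of_deriv_eq_zero (fun t => (hd t).differentiableAt) (fun t => (hd t).deriv) t t0

/-- if the normal coefficient vanishes at one point, it vanishes identically -/
theorem coeff_zero_of_zero (γ T : ℝ → ℂ) (κ f : ℝ → ℝ)
    (hγ : ∀ s, HasDerivAt γ (T s) s) (hunit : ∀ s, ‖T s‖ = 1)
    (hT : ∀ s, HasDerivAt T ((κ s : ℂ) * (Complex.I * T s)) s) (hκ : ∀ s, 0 < κ s)
    (α β δ b1 b2 : ℝ)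
    (hw : ∀ t, -(f t * (T t).im) = α * (γ t).re + β * (γ t).im + b1 ∧
      f t * (T t).re = β * (γ t).re + δ * (γ t).im + b2)
    (t0 : ℝ) (h0 : f t0 = 0) : ∀ t, f t = 0 := by
  intro t
  by_contra hne
  have hQ := tangent_quadratic γ T κ f hγ hunit hT α β δ b1 b2 hw t
  have hP := conic_const γ T f hγ α β δ b1 b2 hw t0 t
  have hn := unit_sq (hunit t)
  obtain ⟨a1, a2⟩ := hw t
  obtain ⟨z1, z2⟩ := hw t0
  rw [h0] at z1 z2
  simp only [zero_mul, neg_zero] at z1 z2
  have hκt := hκ t
  generalize (T t).re = p at *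
  generalize (T t).im = q at *
  generalize (γ t).re = x at *
  generalize (γ t).im = y at *
  generalize (γ t0).re = x0 at *
  generalize (γ t0).im = y0 at *
  generalize f t = a at *
  generalize κ t = k at *
  -- E1 : -(a q) = α (x - x0) + β (y - y0);  E2 : a p = β (x - x0) + δ (y - y0)
  have E1 : -(a * q) = α * (x - x0) + β * (y - y0) := by linear_combination a1 - z1
  have E2 : a * p = β * (x - x0) + δ * (y - y0) := by linear_combination a2 - z2
  have E3 : α * (x - x0) ^ 2 + 2 * β * (x - x0) * (y - y0) + δ * (y - y0) ^ 2 = 0 := by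
    linear_combination hP + 2 * (x - x0) * z1 + 2 * (y - y0) * z2
  have E4 : -((x - x0) * q) + (y - y0) * p = 0 := by
    have : a * (-((x - x0) * q) + (y - y0) * p) = 0 := by
      linear_combination (x - x0) * E1 + (y - y0) * E2 + E3
    rcases mul_eq_zero.mp this with h | h
    · exact absurd h hne
    · exact h
  obtain ⟨lam, hlam⟩ : ∃ lam, lam = (x - x0) * p + (y - y0) * q := ⟨_, rfl⟩
  have hu1 : x - x0 = lam * p := by
    rw [hlam]; linear_combination (-(x - x0)) * hn - q * E4
  have hu2 : y - y0 = lam * q := by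
    rw [hlam]; linear_combination (-(y - y0)) * hn + p * E4
  have hlam0 : lam = 0 := by
    have : lam * (k * a) = 0 := by
      rw [hu1, hu2] at E1 E2
      linear_combination lam * hQ + p * E1 + q * E2
    rcases mul_eq_zero.mp this with h | h
    · exact h
    · exact absurd h (mul_ne_zero hκt.ne' hne)
  rw [hlam0] at hu1 hu2
  rw [hu1, hu2] at E1 E2
  apply hne
  linear_combination (-q) * E1 + p * E2 - a * hn

end Vale.Agent.Lib.P097
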