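import Mathlib
import Vale.Agent.Lib.P097.Linear

namespace Vale.Agent.Lib.P097

open Complex

theorem circle_of_killing (γ T : ℝ → ℂ) (κ b : ℝ → ℝ) (L : ℝ) (hL : 0 < L)
    (hper : ∀ s, γ (s + L) = γ s)
    (hγ : ∀ s, HasDerivAt γ (T s) s) (hunit : ∀ s, ‖T s‖ = 1)
    (hT : ∀ s, HasDerivAt T ((κ s : ℂ) * (Complex.I * T s)) s) (hκ : ∀ s, 0 < κ s)
    (hb : ∃ s, b s ≠ 0) (μ c1 c2 : ℝ)
    (hv : ∀ t, b t * (T t).re = -(μ * (γ t).im) + c1 ∧ b t * (T t).im = μ * (γ t).re + c2) :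
    ∃ (c : ℂ) (α' β' δ' : ℝ), 0 < α' ∧ 0 < α' * δ' - β' ^ 2 ∧
      Set.range γ = {z : ℂ | α' * (z - c).re ^ 2 + 2 * β' * (z - c).re * (z - c).im
        + δ' * (z - c).im ^ 2 = 1} := by
  have hx : ∀ t, HasDerivAt (fun t => (γ t).re) (T t).re t := fun t => hasDerivAt_re (hγ t)
  have hy : ∀ t, HasDerivAt (fun t => (γ t).im) (T t).im t := fun t => hasDerivAt_im (hγ t)
  have hp : ∀ t, HasDerivAt (fun t => (T t).re) (-(κ t * (T t).im)) t := by
    intro t
    have := hasDerivAt_re (hT t)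
    simpa using this
  have hq : ∀ t, HasDerivAt (fun t => (T t).im) (κ t * (T t).re) t := by
    intro t
    have := hasDerivAt_im (hT t)
    simpa using this
  have hn : ∀ t, (T t).re * (T t).re + (T t).im * (T t).im = 1 := fun t => unit_sq (hunit t)
  have hC : ∀ t, (-(μ * (γ t).im) + c1) * (T t).im - (μ * (γ t).re + c2) * (T t).re = 0 := by
    intro t
    obtain ⟨e1, e2⟩ := hv t
    rw [← e1, ← e2]; ring
  have hμb : ∀ t, κ t * b t = μ := by
    intro t
    have hd : HasDerivAt (fun t => (-(μ * (γ t).im) + c1) * (T t).im -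
        (μ * (γ t).re + c2) * (T t).re)
        ((-(μ * (T t).im)) * (T t).im + (-(μ * (γ t).im) + c1) * (κ t * (T t).re) -
          ((μ * (T t).re) * (T t).re + (μ * (γ t).re + c2) * (-(κ t * (T t).im)))) t :=
      (((((hy t).const_mul μ).neg).add_const c1).mul (hq t)).sub
        ((((hx t).const_mul μ).add_const c2).mul (hp t))
    have h0 : (fun t => (-(μ * (γ t).im) + c1) * (T t).im -
        (μ * (γ t).re + c2) * (T t).re) = fun _ => 0 := funext hC
    rw [h0] at hd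
    have h1 := hd.unique (hasDerivAt_const t (0:ℝ))
    obtain ⟨e1, e2⟩ := hv t
    rw [← e1, ← e2] at h1
    have hnt := hn t
    linear_combination h1 - (κ t * b t - μ) * hnt
  have hμ : μ ≠ 0 := by
    obtain ⟨s, hs⟩ := hb
    rw [← hμb s]
    exact mul_ne_zero (hκ s).ne' hs
  obtain ⟨xc, hxc⟩ : ∃ xc, xc = -c2 / μ := ⟨_, rfl⟩
  obtain ⟨yc, hyc⟩ : ∃ yc, yc = c1 / μ := ⟨_, rfl⟩
  have hxc' : μ * xc = -c2 := by rw [hxc]; field_simp
  have hyc' : μ * yc = c1 := by rw [hyc]; field_simp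
  have hG : ∀ t, (T t).re * ((γ t).re - xc) + (T t).im * ((γ t).im - yc) = 0 := by
    intro t
    have : μ * ((T t).re * ((γ t).re - xc) + (T t).im * ((γ t).im - yc)) = 0 := by
      linear_combination (-1 : ℝ) * hC t - (T t).re * hxc' - (T t).im * hyc'
    rcases mul_eq_zero.mp this with h | h
    · exact absurd h hμ
    · exact h
  have hR : ∀ t, ((γ t).re - xc) * ((γ t).re - xc) + ((γ t).im - yc) * ((γ t).im - yc) =
      ((γ 0).re - xc) * ((γ 0).re - xc) + ((γ 0).im - yc) * ((γ 0).im - yc) := by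
    have hd : ∀ t, HasDerivAt (fun t => ((γ t).re - xc) * ((γ t).re - xc) +
        ((γ t).im - yc) * ((γ t).im - yc)) 0 t := by
      intro t
      have h1 := (((hx t).sub_const xc).mul ((hx t).sub_const xc)).add
        (((hy t).sub_const yc).mul ((hy t).sub_const yc))
      have h2 : (T t).re * ((γ t).re - xc) + ((γ t).re - xc) * (T t).re +
          ((T t).im * ((γ t).im - yc) + ((γ t).im - yc) * (T t).im) = 0 := by
        linear_combination 2 * hG t
      rw [h2] at h1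
      exact h1
    intro t
    exact is_const_of_deriv_eq_zero (fun t => (hd t).differentiableAt) (fun t => (hd t).deriv) t 0
  obtain ⟨ρ, hρdef⟩ : ∃ ρ, ρ = ((γ 0).re - xc) * ((γ 0).re - xc) +
      ((γ 0).im - yc) * ((γ 0).im - yc) := ⟨_, rfl⟩
  rw [← hρdef] at hR
  have hρ : 0 < ρ := by
    by_contra hcon
    push Not at hcon
    have hall : ∀ t, (γ t).re - xc = 0 ∧ (γ t).im - yc = 0 := by
      intro t
      have := hR t
      constructor
      · nlinarith [mul_self_nonneg ((γ t).re - xc), mul_self_nonneg ((γ t).im - yc)]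
      · nlinarith [mul_self_nonneg ((γ t).re - xc), mul_self_nonneg ((γ t).im - yc)]
    have h0 : (fun t => (γ t).re) = fun _ => xc := by
      funext t
      linarith [(hall t).1]
    have h1 : (fun t => (γ t).im) = fun _ => yc := by
      funext t
      linarith [(hall t).2]
    have d0 := hx 0
    rw [h0] at d0
    have e0 := d0.unique (hasDerivAt_const (0:ℝ) xc)
    have d1 := hy 0
    rw [h1] at d1
    have e1 := d1.unique (hasDerivAt_const (0:ℝ) yc)
    have := hn 0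
    rw [e0, e1] at this
    norm_num at this
  have hG' : ∀ t, (T t).re * ((-1 : ℝ) * ((γ t).re - xc) + 0 * ((γ t).im - yc)) +
      (T t).im * (0 * ((γ t).re - xc) + (-1 : ℝ) * ((γ t).im - yc)) = 0 := by
    intro t
    linear_combination (-1 : ℝ) * hG t
  have hQc : ∀ t, (-1 : ℝ) * ((γ t).re - xc) ^ 2 + 2 * 0 * ((γ t).re - xc) * ((γ t).im - yc) +
      (-1 : ℝ) * ((γ t).im - yc) ^ 2 = -ρ := by
    intro t
    linear_combination (-1 : ℝ) * hR t
  have hα' : 0 < 1 / ρ := by positivity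
  have hdet : 0 < 1 / ρ * (1 / ρ) - (0 : ℝ) ^ 2 := by
    have := mul_pos hα' hα'
    linarith
  refine ⟨⟨xc, yc⟩, 1 / ρ, 0, 1 / ρ, hα', hdet, ?_⟩
  ext z
  simp only [Set.mem_range, Set.mem_ofPred_eq, Complex.sub_re, Complex.sub_im]
  constructor
  · rintro ⟨t, rfl⟩
    have e : 1 / ρ * ((γ t).re - xc) ^ 2 + 2 * 0 * ((γ t).re - xc) * ((γ t).im - yc) +
        1 / ρ * ((γ t).im - yc) ^ 2 = (((γ t).re - xc) * ((γ t).re - xc) +
        ((γ t).im - yc) * ((γ t).im - yc)) / ρ := by ring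
    rw [e, hR t, div_self hρ.ne']
  · intro hz
    have hu : (-1 : ℝ) * (z.re - xc) ^ 2 + 2 * 0 * (z.re - xc) * (z.im - yc) +
        (-1 : ℝ) * (z.im - yc) ^ 2 = -ρ := by
      have e : 1 / ρ * (z.re - xc) ^ 2 + 2 * 0 * (z.re - xc) * (z.im - yc) +
          1 / ρ * (z.im - yc) ^ 2 = ((z.re - xc) ^ 2 + (z.im - yc) ^ 2) / ρ := by ring
      rw [e, div_eq_iff hρ.ne'] at hz
      linarith
    obtain ⟨t, h1, h2⟩ := surj_ellipse γ T L hL hper hγ hunit (-1) 0 (-1) xc yc ρ hρ
      (by norm_num) hG' hQc _ _ hu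
    refine ⟨t, ?_⟩
    apply Complex.ext <;> linarith

end Vale.Agent.Lib.P097
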