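import Mathlib
import Vale.Agent.Lib.P097.Basic

namespace Vale.Agent.Lib.P097

open Complex

theorem dot_eq_re (z w : ℂ) : dot z w = (z * (starRingEnd ℂ) w).re := by
  simp [dot, Complex.mul_re]

theorem abs_dot_le (z w : ℂ) : |dot z w| ≤ ‖z‖ * ‖w‖ := by
  rw [dot_eq_re]
  calc |(z * (starRingEnd ℂ) w).re| ≤ ‖z * (starRingEnd ℂ) w‖ := Complex.abs_re_le_norm _
    _ = ‖z‖ * ‖w‖ := by rw [norm_mul, Complex.norm_conj]

theorem dot_sub_left (z w v : ℂ) : dot (z - w) v = dot z v - dot w v := by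
  simp only [dot, Complex.sub_re, Complex.sub_im]; ring

theorem dot_self_I (z : ℂ) : dot z (Complex.I * z) = 0 := by
  simp only [dot, Complex.mul_re, Complex.mul_im, Complex.I_re, Complex.I_im]; ring

theorem dot_real_smul_left (c : ℝ) (z w : ℂ) : dot (c • z) w = c * dot z w := by
  simp only [dot, Complex.real_smul, Complex.mul_re, Complex.mul_im, Complex.ofReal_re,
    Complex.ofReal_im]; ring

/-- the tangent is `K`-Lipschitz -/
theorem tangent_lipschitz (T : ℝ → ℂ) (κ : ℝ → ℝ) (K : ℝ)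
    (hunit : ∀ s, ‖T s‖ = 1)
    (hT : ∀ s, HasDerivAt T ((κ s : ℂ) * (Complex.I * T s)) s)
    (hκ : ∀ s, 0 < κ s) (hK : ∀ s, κ s ≤ K) (s u : ℝ) :
    ‖T u - T s‖ ≤ K * |u - s| := by
  have h := Convex.norm_image_sub_le_of_norm_hasDerivWithin_le (f := T)
    (f' := fun x => (κ x : ℂ) * (Complex.I * T x)) (s := Set.univ) (x := s) (y := u) (C := K)
    (fun x _ => (hT x).hasDerivWithinAt)
    (fun x _ => by
      rw [norm_mul, norm_mul, Complex.norm_I, hunit x, Complex.norm_real, Real.norm_eq_abs,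
        abs_of_pos (hκ x)]
      simpa using hK x)
    convex_univ (Set.mem_univ _) (Set.mem_univ _)
  simpa [Real.norm_eq_abs] using h

/-- second order Taylor bound for the curve -/
theorem chord_sub_tangent (γ T : ℝ → ℂ) (κ : ℝ → ℝ) (K : ℝ)
    (hγ : ∀ s, HasDerivAt γ (T s) s) (hunit : ∀ s, ‖T s‖ = 1)
    (hT : ∀ s, HasDerivAt T ((κ s : ℂ) * (Complex.I * T s)) s)
    (hκ : ∀ s, 0 < κ s) (hK : ∀ s, κ s ≤ K) (s t : ℝ) :
    ‖γ t - γ s - (t - s) • T s‖ ≤ K * |t - s| * |t - s| := by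
  have hK0 : 0 ≤ K := le_trans (hκ 0).le (hK 0)
  have hd : ∀ x ∈ Set.uIcc s t, HasDerivWithinAt (fun u : ℝ => γ u - u • T s)
      (T x - (1 : ℝ) • T s) (Set.uIcc s t) x := by
    intro x _
    exact ((hγ x).sub ((hasDerivAt_id x).smul_const (T s))).hasDerivWithinAt
  have hb : ∀ x ∈ Set.uIcc s t, ‖T x - (1 : ℝ) • T s‖ ≤ K * |t - s| := by
    intro x hx
    rw [one_smul]
    refine le_trans (tangent_lipschitz T κ K hunit hT hκ hK s x) ?_
    apply mul_le_mul_of_nonneg_left _ hK0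
    rcases Set.mem_uIcc.mp hx with ⟨h1, h2⟩ | ⟨h1, h2⟩
    · rw [abs_of_nonneg (by linarith), abs_of_nonneg (by linarith)]; linarith
    · rw [abs_of_nonpos (by linarith), abs_of_nonpos (by linarith)]; linarith
  have h := Convex.norm_image_sub_le_of_norm_hasDerivWithin_le (f := fun u : ℝ => γ u - u • T s)
    (f' := fun x => T x - (1 : ℝ) • T s) (s := Set.uIcc s t) (x := s) (y := t)
    (C := K * |t - s|) hd hb (convex_uIcc s t) Set.left_mem_uIcc Set.right_mem_uIcc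
  have e : γ t - t • T s - (γ s - s • T s) = γ t - γ s - (t - s) • T s := by
    rw [sub_smul]; ring
  rw [Real.norm_eq_abs] at h
  have h' : ‖γ t - t • T s - (γ s - s • T s)‖ ≤ K * |t - s| * |t - s| := h
  rw [e] at h'
  exact h'

theorem chord_normal_le (γ T : ℝ → ℂ) (κ : ℝ → ℝ) (K : ℝ)
    (hγ : ∀ s, HasDerivAt γ (T s) s) (hunit : ∀ s, ‖T s‖ = 1)
    (hT : ∀ s, HasDerivAt T ((κ s : ℂ) * (Complex.I * T s)) s)
    (hκ : ∀ s, 0 < κ s) (hK : ∀ s, κ s ≤ K) (s t : ℝ) :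
    |dot (γ t - γ s) (Complex.I * T s)| ≤ K * |t - s| * |t - s| := by
  have e : dot (γ t - γ s) (Complex.I * T s) =
      dot (γ t - γ s - (t - s) • T s) (Complex.I * T s) := by
    rw [dot_sub_left (γ t - γ s), dot_real_smul_left, dot_self_I]; ring
  rw [e]
  refine le_trans (abs_dot_le _ _) ?_
  rw [norm_mul, Complex.norm_I, hunit s, one_mul, mul_one]
  exact chord_sub_tangent γ T κ K hγ hunit hT hκ hK s t

theorem chord_norm_ge (γ T : ℝ → ℂ) (κ : ℝ → ℝ) (K : ℝ)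
    (hγ : ∀ s, HasDerivAt γ (T s) s) (hunit : ∀ s, ‖T s‖ = 1)
    (hT : ∀ s, HasDerivAt T ((κ s : ℂ) * (Complex.I * T s)) s)
    (hκ : ∀ s, 0 < κ s) (hK : ∀ s, κ s ≤ K) (s t : ℝ) (hst : K * |t - s| ≤ 1 / 2) :
    |t - s| / 2 ≤ ‖γ t - γ s‖ := by
  have h1 := chord_sub_tangent γ T κ K hγ hunit hT hκ hK s t
  have h2 : ‖(t - s) • T s‖ = |t - s| := by
    rw [norm_smul, hunit s, mul_one, Real.norm_eq_abs]
  have h3 : ‖(t - s) • T s‖ - ‖γ t - γ s‖ ≤ ‖γ t - γ s - (t - s) • T s‖ := by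
    have := norm_sub_norm_le ((t - s) • T s) (γ t - γ s)
    rw [norm_sub_rev ((t - s) • T s) (γ t - γ s)] at this
    exact this
  have h4 : K * |t - s| * |t - s| ≤ 1 / 2 * |t - s| :=
    mul_le_mul_of_nonneg_right hst (abs_nonneg _)
  rw [h2] at h3
  linarith

end Vale.Agent.Lib.P097
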