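import Mathlib
import Vale.Agent.Lib.P097.Circle

namespace Vale.Agent.Lib.P097

open Complex

theorem ellipse_of_linear_integral (γ T : ℝ → ℂ) (κ a b : ℝ → ℝ) (L ε : ℝ)
    (hL : 0 < L) (hper : ∀ s, γ (s + L) = γ s)
    (hγ : ∀ s, HasDerivAt γ (T s) s) (hunit : ∀ s, ‖T s‖ = 1)
    (hT : ∀ s, HasDerivAt T ((κ s : ℂ) * (Complex.I * T s)) s) (hκ : ∀ s, 0 < κ s)
    (hab : ∃ s, a s ≠ 0 ∨ b s ≠ 0) (hε : 0 < ε)
    (hinv : ∀ s t, |s - t| < ε →
      a s * dot (γ t - γ s) (Complex.I * T s) + b s * dot (γ t - γ s) (T s) =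
        a t * dot (γ s - γ t) (Complex.I * T t) + b t * dot (γ t - γ s) (T t)) :
    ∃ (c : ℂ) (α β δ : ℝ), 0 < α ∧ 0 < α * δ - β ^ 2 ∧
      Set.range γ = {z : ℂ | α * (z - c).re ^ 2 + 2 * β * (z - c).re * (z - c).im
        + δ * (z - c).im ^ 2 = 1} := by
  by_cases hA : ∃ s, a s ≠ 0
  · obtain ⟨α, β, δ, b1, b2, h⟩ := global_affine γ T (fun u => (a u : ℂ) * (Complex.I * T u)) κ
      hγ hunit hT (fun s => (hκ s).ne') ε hε
      (by
        intro s t hst
        have h1 := hinv s t hst
        have h2 := hinv t s (by rw [abs_sub_comm]; exact hst)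
        simp only [dot, Complex.sub_re, Complex.sub_im, Complex.add_re, Complex.add_im,
          Complex.mul_re, Complex.mul_im, Complex.ofReal_re, Complex.ofReal_im,
          Complex.I_re, Complex.I_im] at h1 h2 ⊢
        linear_combination (1 / 2 : ℝ) * h1 - (1 / 2 : ℝ) * h2)
    have hw : ∀ t, -(a t * (T t).im) = α * (γ t).re + β * (γ t).im + b1 ∧
        a t * (T t).re = β * (γ t).re + δ * (γ t).im + b2 := by
      intro t
      obtain ⟨e1, e2⟩ := h t
      simp only [Complex.mul_re, Complex.mul_im, Complex.ofReal_re, Complex.ofReal_im,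
        Complex.I_re, Complex.I_im] at e1 e2
      constructor <;> linarith
    have hne : ∀ t, a t ≠ 0 := by
      intro t ht
      obtain ⟨s, hs⟩ := hA
      exact hs (coeff_zero_of_zero γ T κ a hγ hunit hT hκ α β δ b1 b2 hw t ht s)
    have hγc : Continuous γ := continuous_iff_continuousAt.mpr (fun s => (hγ s).continuousAt)
    have hTc : Continuous T := continuous_iff_continuousAt.mpr (fun s => (hT s).continuousAt)
    have hformula : ∀ t, a t = (T t).re * (β * (γ t).re + δ * (γ t).im + b2) -
        (T t).im * (α * (γ t).re + β * (γ t).im + b1) := by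
      intro t
      obtain ⟨e1, e2⟩ := hw t
      have hn := unit_sq (hunit t)
      rw [← e1, ← e2]
      linear_combination (-(a t)) * hn
    have hac : Continuous a := by
      have : a = fun t => (T t).re * (β * (γ t).re + δ * (γ t).im + b2) -
          (T t).im * (α * (γ t).re + β * (γ t).im + b1) := funext hformula
      rw [this]
      have hre : Continuous fun t => (γ t).re := Complex.continuous_re.comp hγc
      have him : Continuous fun t => (γ t).im := Complex.continuous_im.comp hγc
      have hTre : Continuous fun t => (T t).re := Complex.continuous_re.comp hTc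
      have hTim : Continuous fun t => (T t).im := Complex.continuous_im.comp hTc
      fun_prop
    have hsign : (∀ t, 0 < a t) ∨ (∀ t, a t < 0) := by
      by_contra hcon
      push Not at hcon
      obtain ⟨⟨t1, h1⟩, ⟨t2, h2⟩⟩ := hcon
      obtain ⟨t, ht⟩ := mem_range_of_exists_le_of_exists_ge hac ⟨t1, h1⟩ ⟨t2, h2⟩
      exact hne t ht
    rcases hsign with hpos | hneg
    · exact ellipse_of_affine γ T κ a L hL hper hγ hunit hT hκ hpos α β δ b1 b2 hw
    · apply ellipse_of_affine γ T κ (fun t => -a t) L hL hper hγ hunit hT hκ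
        (fun t => neg_pos.mpr (hneg t)) (-α) (-β) (-δ) (-b1) (-b2)
      intro t
      obtain ⟨e1, e2⟩ := hw t
      constructor <;> linarith
  · push Not at hA
    have hb : ∃ s, b s ≠ 0 := by
      obtain ⟨s, hs⟩ := hab
      rcases hs with hs | hs
      · exact absurd (hA s) hs
      · exact ⟨s, hs⟩
    obtain ⟨μ, c1, c2, h⟩ := global_killing γ T (fun u => (b u : ℂ) * T u) κ
      hγ hunit hT (fun s => (hκ s).ne') ε hε
      (by
        intro s t hst
        have h1 := hinv s t hst
        rw [hA s, hA t] at h1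
        simp only [dot, Complex.sub_re, Complex.sub_im,
          Complex.mul_re, Complex.mul_im, Complex.ofReal_re, Complex.ofReal_im,
          Complex.I_re, Complex.I_im] at h1 ⊢
        linear_combination h1)
    apply circle_of_killing γ T κ b L hL hper hγ hunit hT hκ hb μ c1 c2
    intro t
    obtain ⟨e1, e2⟩ := h t
    simp only [Complex.mul_re, Complex.mul_im, Complex.ofReal_re, Complex.ofReal_im] at e1 e2
    constructor <;> linarith

end Vale.Agent.Lib.P097
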