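import Mathlib
import Vale.Agent.Lib.P097.Estimates
import Vale.Agent.Lib.P097.LinearMain

namespace Vale.Agent.Lib.P097

open Complex

theorem dot_frame (z T : ℂ) (hT : ‖T‖ = 1) :
    dot z T ^ 2 + dot z (Complex.I * T) ^ 2 = dot z z := by
  have hn := unit_sq hT
  simp only [dot, Complex.mul_re, Complex.mul_im, Complex.I_re, Complex.I_im]
  linear_combination (z.re * z.re + z.im * z.im) * hn

theorem dot_self_eq (z : ℂ) : dot z z = ‖z‖ ^ 2 := by
  rw [Complex.sq_norm, Complex.normSq_apply, dot]

theorem dot_tangent_ge (T : ℝ → ℂ) (κ : ℝ → ℝ) (K : ℝ)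
    (hunit : ∀ s, ‖T s‖ = 1)
    (hT : ∀ s, HasDerivAt T ((κ s : ℂ) * (Complex.I * T s)) s)
    (hκ : ∀ s, 0 < κ s) (hK : ∀ s, κ s ≤ K) (s u : ℝ) (hu : K * |u - s| ≤ 1 / 2) :
    1 / 2 ≤ dot (T u) (T s) := by
  have h1 := tangent_lipschitz T κ K hunit hT hκ hK s u
  have h2 : dot (T u) (T s) = dot (T s) (T s) + dot (T u - T s) (T s) := by
    rw [dot_sub_left]; ring
  have h3 : dot (T s) (T s) = 1 := by rw [dot_self_eq, hunit s]; norm_num
  have h4 : |dot (T u - T s) (T s)| ≤ ‖T u - T s‖ * ‖T s‖ := abs_dot_le _ _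
  rw [hunit s, mul_one] at h4
  have h5 := abs_le.mp h4
  rw [h2, h3]
  linarith [h5.1]

/-- short chords lie strictly on the inner side of the tangent line -/
theorem chord_normal_pos (γ T : ℝ → ℂ) (κ : ℝ → ℝ) (K : ℝ)
    (hγ : ∀ s, HasDerivAt γ (T s) s) (hunit : ∀ s, ‖T s‖ = 1)
    (hT : ∀ s, HasDerivAt T ((κ s : ℂ) * (Complex.I * T s)) s)
    (hκ : ∀ s, 0 < κ s) (hK : ∀ s, κ s ≤ K) (s t : ℝ) (hne : t ≠ s)
    (hst : K * |t - s| ≤ 1 / 2) :
    0 < dot (γ t - γ s) (Complex.I * T s) := by
  have hK0 : 0 ≤ K := le_trans (hκ 0).le (hK 0)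
  have hφd : ∀ u, HasDerivAt (fun u => dot (T u) (Complex.I * T s))
      (κ u * dot (T u) (T s)) u := by
    intro u
    have h := hasDerivAt_dot_left (hT u) (Complex.I * T s)
    have e : dot ((κ u : ℂ) * (Complex.I * T u)) (Complex.I * T s) = κ u * dot (T u) (T s) := by
      simp only [dot, Complex.mul_re, Complex.mul_im, Complex.I_re, Complex.I_im,
        Complex.ofReal_re, Complex.ofReal_im]
      ring
    rw [e] at h
    exact h
  have hψd : ∀ u, HasDerivAt (fun u => dot (γ u - γ s) (Complex.I * T s))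
      (dot (T u) (Complex.I * T s)) u := by
    intro u
    exact hasDerivAt_dot_left ((hγ u).sub_const (γ s)) (Complex.I * T s)
  have hφc : Continuous (fun u => dot (T u) (Complex.I * T s)) :=
    continuous_iff_continuousAt.mpr (fun u => (hφd u).continuousAt)
  have hψc : Continuous (fun u => dot (γ u - γ s) (Complex.I * T s)) :=
    continuous_iff_continuousAt.mpr (fun u => (hψd u).continuousAt)
  have hφ0 : dot (T s) (Complex.I * T s) = 0 := dot_self_I (T s)
  have hψ0 : dot (γ s - γ s) (Complex.I * T s) = 0 := by simp [dot]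
  rcases lt_or_gt_of_ne hne with hlt | hgt
  · -- t < s
    have habs : |t - s| = s - t := by rw [abs_of_neg (by linarith)]; ring
    have hφmono : StrictMonoOn (fun u => dot (T u) (Complex.I * T s)) (Set.Icc t s) := by
      apply strictMonoOn_of_deriv_pos (convex_Icc t s) hφc.continuousOn
      intro x hx
      rw [interior_Icc] at hx
      rw [(hφd x).deriv]
      apply mul_pos (hκ x)
      have : 1 / 2 ≤ dot (T x) (T s) := by
        apply dot_tangent_ge T κ K hunit hT hκ hK s x
        have : |x - s| ≤ |t - s| := by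
          rw [habs, abs_of_neg (by linarith [hx.2])]; linarith [hx.1]
        exact le_trans (mul_le_mul_of_nonneg_left this hK0) hst
      linarith
    have hψanti : StrictAntiOn (fun u => dot (γ u - γ s) (Complex.I * T s)) (Set.Icc t s) := by
      apply strictAntiOn_of_deriv_neg (convex_Icc t s) hψc.continuousOn
      intro x hx
      rw [interior_Icc] at hx
      rw [(hψd x).deriv]
      have := hφmono ⟨hx.1.le, hx.2.le⟩ ⟨hlt.le, le_refl s⟩ hx.2
      simp only at this
      rw [hφ0] at this
      exact this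
    have := hψanti ⟨le_refl t, hlt.le⟩ ⟨hlt.le, le_refl s⟩ hlt
    simp only at this
    rw [hψ0] at this
    exact this
  · -- s < t
    have habs : |t - s| = t - s := abs_of_pos (by linarith)
    have hφmono : StrictMonoOn (fun u => dot (T u) (Complex.I * T s)) (Set.Icc s t) := by
      apply strictMonoOn_of_deriv_pos (convex_Icc s t) hφc.continuousOn
      intro x hx
      rw [interior_Icc] at hx
      rw [(hφd x).deriv]
      apply mul_pos (hκ x)
      have : 1 / 2 ≤ dot (T x) (T s) := by
        apply dot_tangent_ge T κ K hunit hT hκ hK s x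
        have : |x - s| ≤ |t - s| := by
          rw [habs, abs_of_pos (by linarith [hx.1])]; linarith [hx.2]
        exact le_trans (mul_le_mul_of_nonneg_left this hK0) hst
      linarith
    have hψmono : StrictMonoOn (fun u => dot (γ u - γ s) (Complex.I * T s)) (Set.Icc s t) := by
      apply strictMonoOn_of_deriv_pos (convex_Icc s t) hψc.continuousOn
      intro x hx
      rw [interior_Icc] at hx
      rw [(hψd x).deriv]
      have := hφmono ⟨le_refl s, hgt.le⟩ ⟨hx.1.le, hx.2.le⟩ hx.1
      simp only at this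
      rw [hφ0] at this
      exact this
    have := hψmono ⟨le_refl s, hgt.le⟩ ⟨hgt.le, le_refl t⟩ hgt
    simp only at this
    rw [hψ0] at this
    exact this

theorem const_of_sq_bound (k : ℝ → ℝ) (C r : ℝ) (hr : 0 < r)
    (h : ∀ s t, |t - s| ≤ r → |k t - k s| ≤ C * (t - s) ^ 2) : ∀ s t, k s = k t := by
  have hd : ∀ x, HasDerivAt k 0 x := by
    intro x
    rw [hasDerivAt_iff_isLittleO]
    rw [Asymptotics.isLittleO_iff]
    intro c hc
    have hpos : 0 < min r (c / (|C| + 1)) := lt_min hr (div_pos hc (by positivity))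
    filter_upwards [Metric.ball_mem_nhds x hpos] with y hy
    rw [Metric.mem_ball, Real.dist_eq] at hy
    have h1 : |y - x| ≤ r := le_trans hy.le (min_le_left _ _)
    have h2 : |y - x| ≤ c / (|C| + 1) := le_trans hy.le (min_le_right _ _)
    have h3 := h x y h1
    simp only [smul_zero, sub_zero, Real.norm_eq_abs]
    have h4 : C * (y - x) ^ 2 ≤ (|C| + 1) * |y - x| * |y - x| := by
      have e : (y - x) ^ 2 = |y - x| * |y - x| := by rw [← sq, sq_abs]
      rw [e]
      have : C ≤ |C| + 1 := by linarith [le_abs_self C]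
      nlinarith [mul_nonneg (abs_nonneg (y - x)) (abs_nonneg (y - x))]
    have h5 : (|C| + 1) * |y - x| ≤ c := by
      have hC : 0 < |C| + 1 := by positivity
      calc (|C| + 1) * |y - x| ≤ (|C| + 1) * (c / (|C| + 1)) :=
            mul_le_mul_of_nonneg_left h2 hC.le
        _ = c := by field_simp
    calc |k y - k x| ≤ C * (y - x) ^ 2 := h3
      _ ≤ (|C| + 1) * |y - x| * |y - x| := h4
      _ ≤ c * |y - x| := mul_le_mul_of_nonneg_right h5 (abs_nonneg _)
  intro s t
  exact is_const_of_deriv_eq_zero (fun x => (hd x).differentiableAt) (fun x => (hd x).deriv) s t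

end Vale.Agent.Lib.P097
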