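import Mathlib
import Vale.Agent.Lib.P097.EvenQuad

namespace Vale.Agent.Lib.P097

open Complex

theorem continuous_dot {f g : ℝ → ℂ} (hf : Continuous f) (hg : Continuous g) :
    Continuous fun s => dot (f s) (g s) := by
  simp only [dot]
  exact ((Complex.continuous_re.comp hf).mul (Complex.continuous_re.comp hg)).add
    ((Complex.continuous_im.comp hf).mul (Complex.continuous_im.comp hg))

theorem dot_normal_sq_le (z T : ℂ) (hT : ‖T‖ = 1) : dot z (Complex.I * T) ^ 2 ≤ dot z z := by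
  have := dot_frame z T hT
  nlinarith [sq_nonneg (dot z T)]

theorem dot_self_pos_of_chord (γ T : ℝ → ℂ) (κ : ℝ → ℝ) (K : ℝ)
    (hγ : ∀ s, HasDerivAt γ (T s) s) (hunit : ∀ s, ‖T s‖ = 1)
    (hT : ∀ s, HasDerivAt T ((κ s : ℂ) * (Complex.I * T s)) s)
    (hκ : ∀ s, 0 < κ s) (hK : ∀ s, κ s ≤ K) (s t : ℝ) (hne : t ≠ s)
    (hst : K * |t - s| ≤ 1 / 2) : 0 < dot (γ t - γ s) (γ t - γ s) := by
  have h := chord_norm_ge γ T κ K hγ hunit hT hκ hK s t hst
  have hpos : 0 < |t - s| := abs_pos.mpr (sub_ne_zero.mpr hne)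
  rw [dot_self_eq]
  have : 0 < ‖γ t - γ s‖ := by linarith
  positivity

/-- elimination of the `k` differences from three two-point identities -/
theorem three_point_bound (ks kt kr ms mt mr dst dtr dsr ast bst atr btr asr bsr c0 : ℝ)
    (E1 : (ks - kt) * dst = mt * bst - ms * ast)
    (E2 : (kt - kr) * dtr = mr * btr - mt * atr)
    (E3 : (ks - kr) * dsr = mr * bsr - ms * asr)
    (hdst : 0 < dst) (hdtr : 0 < dtr) (hdsr : 0 < dsr)
    (hbst0 : 0 ≤ bst) (hbst : bst ≤ dst) (hatr0 : 0 ≤ atr) (hatr : atr ≤ dtr)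
    (hbtr0 : 0 ≤ btr) (hbtr : btr ≤ dtr) (hbsr0 : 0 ≤ bsr) (hbsr : bsr ≤ dsr)
    (hast : ast ≤ c0 / 2 * dst) (hasr : c0 * dsr ≤ asr) (hc0 : 0 < c0) :
    |ms| ≤ 2 * (|mt| + |mr|) / c0 := by
  have hP : 0 < dst * dtr * dsr := by positivity
  have key : ms * (dtr * (asr * dst - ast * dsr)) =
      -(mt * (dsr * (bst * dtr - atr * dst))) - mr * (dst * (btr * dsr - bsr * dtr)) := by
    linear_combination (-dtr * dsr) * E1 - dst * dsr * E2 + dst * dtr * E3
  have hX : c0 / 2 * (dst * dtr * dsr) ≤ dtr * (asr * dst - ast * dsr) := by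
    have h1 : c0 * dsr * dst ≤ asr * dst := mul_le_mul_of_nonneg_right hasr hdst.le
    have h2 : ast * dsr ≤ c0 / 2 * dst * dsr := mul_le_mul_of_nonneg_right hast hdsr.le
    have h3 : c0 / 2 * (dst * dsr) ≤ asr * dst - ast * dsr := by linarith
    have h4 := mul_le_mul_of_nonneg_left h3 hdtr.le
    linarith
  have hY : |dsr * (bst * dtr - atr * dst)| ≤ dst * dtr * dsr := by
    rw [abs_mul, abs_of_pos hdsr]
    have h1 : bst * dtr ≤ dst * dtr := mul_le_mul_of_nonneg_right hbst hdtr.le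
    have h2 : atr * dst ≤ dtr * dst := mul_le_mul_of_nonneg_right hatr hdst.le
    have h3 : 0 ≤ bst * dtr := mul_nonneg hbst0 hdtr.le
    have h4 : 0 ≤ atr * dst := mul_nonneg hatr0 hdst.le
    have h5 : |bst * dtr - atr * dst| ≤ dst * dtr := by
      rw [abs_le]; constructor <;> linarith
    have h6 := mul_le_mul_of_nonneg_left h5 hdsr.le
    linarith
  have hZ : |dst * (btr * dsr - bsr * dtr)| ≤ dst * dtr * dsr := by
    rw [abs_mul, abs_of_pos hdst]
    have h1 : btr * dsr ≤ dtr * dsr := mul_le_mul_of_nonneg_right hbtr hdsr.le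
    have h2 : bsr * dtr ≤ dsr * dtr := mul_le_mul_of_nonneg_right hbsr hdtr.le
    have h3 : 0 ≤ btr * dsr := mul_nonneg hbtr0 hdsr.le
    have h4 : 0 ≤ bsr * dtr := mul_nonneg hbsr0 hdtr.le
    have h5 : |btr * dsr - bsr * dtr| ≤ dtr * dsr := by
      rw [abs_le]; constructor <;> linarith
    have h6 := mul_le_mul_of_nonneg_left h5 hdst.le
    linarith
  have hXpos : 0 < dtr * (asr * dst - ast * dsr) := lt_of_lt_of_le (by positivity) hX
  have h1 : |ms| * (dtr * (asr * dst - ast * dsr)) ≤ (|mt| + |mr|) * (dst * dtr * dsr) := by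
    have e : |ms| * (dtr * (asr * dst - ast * dsr)) = |ms * (dtr * (asr * dst - ast * dsr))| := by
      rw [abs_mul, abs_of_pos hXpos]
    rw [e, key]
    have t1 : |mt * (dsr * (bst * dtr - atr * dst))| ≤ |mt| * (dst * dtr * dsr) := by
      rw [abs_mul]; exact mul_le_mul_of_nonneg_left hY (abs_nonneg _)
    have t2 : |mr * (dst * (btr * dsr - bsr * dtr))| ≤ |mr| * (dst * dtr * dsr) := by
      rw [abs_mul]; exact mul_le_mul_of_nonneg_left hZ (abs_nonneg _)
    have t3 := abs_sub (-(mt * (dsr * (bst * dtr - atr * dst))))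
      (mr * (dst * (btr * dsr - bsr * dtr)))
    rw [abs_neg] at t3
    linarith
  have h2 : |ms| * (c0 / 2 * (dst * dtr * dsr)) ≤ (|mt| + |mr|) * (dst * dtr * dsr) :=
    le_trans (mul_le_mul_of_nonneg_left hX (abs_nonneg _)) h1
  have h3 : |ms| * (c0 / 2) * (dst * dtr * dsr) ≤ (|mt| + |mr|) * (dst * dtr * dsr) := by
    linarith
  have h4 : |ms| * (c0 / 2) ≤ |mt| + |mr| := le_of_mul_le_mul_right h3 hP
  rw [le_div_iff₀ hc0]
  linarith

/-- the normal component of a short chord is small compared with its length -/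
theorem short_chord_normal (γ T : ℝ → ℂ) (κ : ℝ → ℝ) (K c : ℝ)
    (hγ : ∀ s, HasDerivAt γ (T s) s) (hunit : ∀ s, ‖T s‖ = 1)
    (hT : ∀ s, HasDerivAt T ((κ s : ℂ) * (Complex.I * T s)) s)
    (hκ : ∀ s, 0 < κ s) (hK : ∀ s, κ s ≤ K) (s t : ℝ) (hts : 0 < t - s)
    (k_st : K * |t - s| ≤ 1 / 2) (h8 : 4 * (K * (t - s)) ^ 2 ≤ c / 2) :
    dot (γ t - γ s) (Complex.I * T s) ^ 2 ≤ c / 2 * dot (γ t - γ s) (γ t - γ s) := by
  have hc : 0 ≤ c / 2 := le_trans (by positivity) h8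
  have h1 := chord_normal_le γ T κ K hγ hunit hT hκ hK s t
  have h2 := chord_norm_ge γ T κ K hγ hunit hT hκ hK s t k_st
  rw [abs_of_pos hts] at h1 h2
  have h3 : dot (γ t - γ s) (Complex.I * T s) ^ 2 ≤ (K * (t - s) * (t - s)) ^ 2 := by
    rw [← sq_abs (dot (γ t - γ s) (Complex.I * T s))]
    exact pow_le_pow_left₀ (abs_nonneg _) h1 2
  have h4 : ((t - s) / 2) ^ 2 ≤ dot (γ t - γ s) (γ t - γ s) := by
    rw [dot_self_eq]
    exact pow_le_pow_left₀ (by linarith) h2 2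
  have h9 : (K * (t - s) * (t - s)) ^ 2 = 4 * (K * (t - s)) ^ 2 * ((t - s) / 2) ^ 2 := by ring
  calc dot (γ t - γ s) (Complex.I * T s) ^ 2 ≤ (K * (t - s) * (t - s)) ^ 2 := h3
    _ = 4 * (K * (t - s)) ^ 2 * ((t - s) / 2) ^ 2 := h9
    _ ≤ c / 2 * ((t - s) / 2) ^ 2 := mul_le_mul_of_nonneg_right h8 (sq_nonneg _)
    _ ≤ c / 2 * dot (γ t - γ s) (γ t - γ s) := mul_le_mul_of_nonneg_left h4 hc

end Vale.Agent.Lib.P097
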