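import Mathlib
import Vale.Agent.Lib.P097.LocalBound

namespace Vale.Agent.Lib.P097

open Complex

/-- three-point estimate for the coefficient `m` -/
theorem local_bound_aux (γ T : ℝ → ℂ) (κ k m : ℝ → ℝ) (ε K : ℝ)
    (hγ : ∀ s, HasDerivAt γ (T s) s) (hunit : ∀ s, ‖T s‖ = 1)
    (hT : ∀ s, HasDerivAt T ((κ s : ℂ) * (Complex.I * T s)) s)
    (hκ : ∀ s, 0 < κ s) (hK : ∀ s, κ s ≤ K)
    (hinv : ∀ s t, |s - t| < ε →
      (k s - k t) * dot (γ t - γ s) (γ t - γ s) =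
        m t * dot (γ t - γ s) (Complex.I * T t) ^ 2 -
        m s * dot (γ t - γ s) (Complex.I * T s) ^ 2)
    (s t rr c0 : ℝ) (hst : s < t) (htr : t < rr) (hsr : rr - s < ε)
    (hKsr : K * (rr - s) ≤ 1 / 2) (hc0 : 0 < c0)
    (hg : c0 * dot (γ rr - γ s) (γ rr - γ s) ≤ dot (γ rr - γ s) (Complex.I * T s) ^ 2)
    (h8 : 4 * (K * (t - s)) ^ 2 ≤ c0 / 2) :
    |m s| ≤ 2 * (|m t| + |m rr|) / c0 := by
  have hK0 : 0 < K := lt_of_lt_of_le (hκ 0) (hK 0)
  have hts_pos : 0 < t - s := by linarith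
  have hrt_pos : 0 < rr - t := by linarith
  have hrs_pos : 0 < rr - s := by linarith
  have e_st : |s - t| < ε := by rw [abs_sub_comm, abs_of_pos hts_pos]; linarith
  have e_tr : |t - rr| < ε := by rw [abs_sub_comm, abs_of_pos hrt_pos]; linarith
  have e_sr : |s - rr| < ε := by rw [abs_sub_comm, abs_of_pos hrs_pos]; linarith
  have k_st : K * |t - s| ≤ 1 / 2 := by
    rw [abs_of_pos hts_pos]
    have : K * (t - s) ≤ K * (rr - s) := mul_le_mul_of_nonneg_left (by linarith) hK0.le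
    linarith
  have k_tr : K * |rr - t| ≤ 1 / 2 := by
    rw [abs_of_pos hrt_pos]
    have : K * (rr - t) ≤ K * (rr - s) := mul_le_mul_of_nonneg_left (by linarith) hK0.le
    linarith
  have k_sr : K * |rr - s| ≤ 1 / 2 := by
    rw [abs_of_pos hrs_pos]; exact hKsr
  exact three_point_bound (k s) (k t) (k rr) (m s) (m t) (m rr)
    (dot (γ t - γ s) (γ t - γ s)) (dot (γ rr - γ t) (γ rr - γ t)) (dot (γ rr - γ s) (γ rr - γ s))
    (dot (γ t - γ s) (Complex.I * T s) ^ 2) (dot (γ t - γ s) (Complex.I * T t) ^ 2)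
    (dot (γ rr - γ t) (Complex.I * T t) ^ 2) (dot (γ rr - γ t) (Complex.I * T rr) ^ 2)
    (dot (γ rr - γ s) (Complex.I * T s) ^ 2) (dot (γ rr - γ s) (Complex.I * T rr) ^ 2) c0
    (hinv s t e_st) (hinv t rr e_tr) (hinv s rr e_sr)
    (dot_self_pos_of_chord γ T κ K hγ hunit hT hκ hK s t (by linarith) k_st)
    (dot_self_pos_of_chord γ T κ K hγ hunit hT hκ hK t rr (by linarith) k_tr)
    (dot_self_pos_of_chord γ T κ K hγ hunit hT hκ hK s rr (by linarith) k_sr)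
    (sq_nonneg _) (dot_normal_sq_le _ _ (hunit t))
    (sq_nonneg _) (dot_normal_sq_le _ _ (hunit t))
    (sq_nonneg _) (dot_normal_sq_le _ _ (hunit rr))
    (sq_nonneg _) (dot_normal_sq_le _ _ (hunit rr))
    (short_chord_normal γ T κ K c0 hγ hunit hT hκ hK s t hts_pos k_st h8)
    hg hc0

end Vale.Agent.Lib.P097
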