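import Mathlib
import Vale.Agent.Lib.P097.LocalBound2

namespace Vale.Agent.Lib.P097

open Complex

/-- the coefficient `m` of an invariant function `k + m sin^2` is locally bounded -/
theorem local_bound (γ T : ℝ → ℂ) (κ k m : ℝ → ℝ) (ε K : ℝ)
    (hγ : ∀ s, HasDerivAt γ (T s) s) (hunit : ∀ s, ‖T s‖ = 1)
    (hT : ∀ s, HasDerivAt T ((κ s : ℂ) * (Complex.I * T s)) s)
    (hκ : ∀ s, 0 < κ s) (hK : ∀ s, κ s ≤ K) (hε : 0 < ε)
    (hinv : ∀ s t, |s - t| < ε →
      (k s - k t) * dot (γ t - γ s) (γ t - γ s) =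
        m t * dot (γ t - γ s) (Complex.I * T t) ^ 2 -
        m s * dot (γ t - γ s) (Complex.I * T s) ^ 2)
    (s0 : ℝ) : ∃ r R : ℝ, 0 < r ∧ ∀ s, |s - s0| ≤ r → |m s| ≤ R := by
  have hK0 : 0 < K := lt_of_lt_of_le (hκ 0) (hK 0)
  have hγc : Continuous γ := continuous_iff_continuousAt.mpr (fun s => (hγ s).continuousAt)
  have hTc : Continuous T := continuous_iff_continuousAt.mpr (fun s => (hT s).continuousAt)
  obtain ⟨η, hηdef⟩ : ∃ η, η = min (ε / 4) (1 / (4 * K)) := ⟨_, rfl⟩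
  have hη : 0 < η := by rw [hηdef]; exact lt_min (by linarith) (by positivity)
  have hη1 : η ≤ ε / 4 := by rw [hηdef]; exact min_le_left _ _
  have hη2 : K * η ≤ 1 / 4 := by
    have : η ≤ 1 / (4 * K) := by rw [hηdef]; exact min_le_right _ _
    have h3 : K * η ≤ K * (1 / (4 * K)) := mul_le_mul_of_nonneg_left this hK0.le
    have e : K * (1 / (4 * K)) = 1 / 4 := by field_simp
    linarith
  obtain ⟨rr, hrr⟩ : ∃ rr, rr = s0 + η := ⟨_, rfl⟩
  obtain ⟨A0, hA0def⟩ : ∃ A0, A0 = dot (γ rr - γ s0) (Complex.I * T s0) ^ 2 := ⟨_, rfl⟩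
  obtain ⟨D0, hD0def⟩ : ∃ D0, D0 = dot (γ rr - γ s0) (γ rr - γ s0) := ⟨_, rfl⟩
  have hrr0 : |rr - s0| = η := by rw [hrr]; simp [abs_of_pos hη]
  have hD0 : 0 < D0 := by
    rw [hD0def]
    apply dot_self_pos_of_chord γ T κ K hγ hunit hT hκ hK s0 rr
    · rw [hrr]; linarith
    · rw [hrr0]; linarith
  have hA0 : 0 < A0 := by
    rw [hA0def]
    have := chord_normal_pos γ T κ K hγ hunit hT hκ hK s0 rr (by rw [hrr]; linarith)
      (by rw [hrr0]; linarith)
    positivity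
  have hAD : A0 ≤ D0 := by
    rw [hA0def, hD0def]; exact dot_normal_sq_le _ _ (hunit s0)
  obtain ⟨c0, hc0def⟩ : ∃ c0, c0 = A0 / (2 * D0) := ⟨_, rfl⟩
  have hc0 : 0 < c0 := by rw [hc0def]; positivity
  have hc0D : c0 * D0 = A0 / 2 := by rw [hc0def]; field_simp
  have hc0' : c0 ≤ 1 / 2 := by
    rw [hc0def, div_le_iff₀ (by positivity)]; linarith
  obtain ⟨θ, hθdef⟩ : ∃ θ, θ = min (η / 2) (c0 / (3 * K)) := ⟨_, rfl⟩
  have hθ : 0 < θ := by rw [hθdef]; exact lt_min (by linarith) (by positivity)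
  have hθ1 : θ ≤ η / 2 := by rw [hθdef]; exact min_le_left _ _
  have hθ2 : 3 * K * θ ≤ c0 := by
    have : θ ≤ c0 / (3 * K) := by rw [hθdef]; exact min_le_right _ _
    have h3 : 3 * K * θ ≤ 3 * K * (c0 / (3 * K)) :=
      mul_le_mul_of_nonneg_left this (by positivity)
    have e : 3 * K * (c0 / (3 * K)) = c0 := by field_simp
    linarith
  obtain ⟨t, ht⟩ : ∃ t, t = s0 + θ := ⟨_, rfl⟩
  -- continuity gives a neighbourhood where the chord to rr stays transversal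
  have hgc : Continuous (fun s => dot (γ rr - γ s) (Complex.I * T s) ^ 2 -
      c0 * dot (γ rr - γ s) (γ rr - γ s)) := by
    have h1 : Continuous fun s => γ rr - γ s := continuous_const.sub hγc
    have h2 : Continuous fun s => Complex.I * T s := continuous_const.mul hTc
    exact ((continuous_dot h1 h2).pow 2).sub (continuous_const.mul (continuous_dot h1 h1))
  have hg0 : 0 < dot (γ rr - γ s0) (Complex.I * T s0) ^ 2 -
      c0 * dot (γ rr - γ s0) (γ rr - γ s0) := by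
    rw [← hA0def, ← hD0def, hc0D]; linarith
  have hev : ∀ᶠ s in nhds s0, 0 < dot (γ rr - γ s) (Complex.I * T s) ^ 2 -
      c0 * dot (γ rr - γ s) (γ rr - γ s) :=
    hgc.continuousAt.eventually (lt_mem_nhds hg0)
  obtain ⟨δ, hδ, hδball⟩ := Metric.eventually_nhds_iff.mp hev
  refine ⟨min (θ / 2) (δ / 2), 2 * (|m t| + |m rr|) / c0, lt_min (by linarith) (by linarith), ?_⟩
  intro s hs
  have hs1 : |s - s0| ≤ θ / 2 := le_trans hs (min_le_left _ _)
  have hs2 : |s - s0| < δ := lt_of_le_of_lt (le_trans hs (min_le_right _ _)) (by linarith)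
  have hsl := (abs_le.mp hs1).1
  have hsu := (abs_le.mp hs1).2
  have hg : 0 < dot (γ rr - γ s) (Complex.I * T s) ^ 2 -
      c0 * dot (γ rr - γ s) (γ rr - γ s) := by
    apply hδball
    rw [Real.dist_eq]; exact hs2
  have hts_pos : 0 < t - s := by rw [ht]; linarith
  have h5 : t - s ≤ 3 * θ / 2 := by rw [ht]; linarith
  have h6 : K * (t - s) ≤ 3 * K * θ / 2 := by
    have := mul_le_mul_of_nonneg_left h5 hK0.le
    linarith
  have h8 : 4 * (K * (t - s)) ^ 2 ≤ c0 / 2 := by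
    have hnn : 0 ≤ K * (t - s) := mul_nonneg hK0.le hts_pos.le
    have h7 : (K * (t - s)) ^ 2 ≤ (3 * K * θ / 2) ^ 2 := pow_le_pow_left₀ hnn h6 2
    have hpos : 0 ≤ 3 * K * θ := by positivity
    have h9 : (3 * K * θ) ^ 2 ≤ c0 ^ 2 := pow_le_pow_left₀ hpos hθ2 2
    have h10 : c0 ^ 2 ≤ c0 / 2 := by nlinarith
    nlinarith
  have hKsr : K * (rr - s) ≤ 1 / 2 := by
    have : K * (rr - s) ≤ K * (2 * η) :=
      mul_le_mul_of_nonneg_left (by rw [hrr]; linarith) hK0.le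
    linarith
  exact local_bound_aux γ T κ k m ε K hγ hunit hT hκ hK hinv s t rr c0
    (by linarith) (by rw [hrr, ht]; linarith) (by rw [hrr]; linarith) hKsr hc0
    (by linarith) h8

end Vale.Agent.Lib.P097
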