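import Mathlib
import Vale.Agent.Lib.P097.LocalBound3

namespace Vale.Agent.Lib.P097

open Complex

theorem const_of_local_sq_bound (k : ℝ → ℝ)
    (h : ∀ x, ∃ C r : ℝ, 0 < r ∧ ∀ y, |y - x| ≤ r → |k y - k x| ≤ C * (y - x) ^ 2) :
    ∀ s t, k s = k t := by
  have hd : ∀ x, HasDerivAt k 0 x := by
    intro x
    obtain ⟨C, r, hr, hx⟩ := h x
    rw [hasDerivAt_iff_isLittleO]
    rw [Asymptotics.isLittleO_iff]
    intro c hc
    have hpos : 0 < min r (c / (|C| + 1)) := lt_min hr (div_pos hc (by positivity))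
    filter_upwards [Metric.ball_mem_nhds x hpos] with y hy
    rw [Metric.mem_ball, Real.dist_eq] at hy
    have h1 : |y - x| ≤ r := le_trans hy.le (min_le_left _ _)
    have h2 : |y - x| ≤ c / (|C| + 1) := le_trans hy.le (min_le_right _ _)
    have h3 := hx y h1
    simp only [smul_zero, sub_zero, Real.norm_eq_abs]
    have h4 : C * (y - x) ^ 2 ≤ (|C| + 1) * |y - x| * |y - x| := by
      have e : (y - x) ^ 2 = |y - x| * |y - x| := by rw [← sq, sq_abs]
      rw [e]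
      have : C ≤ |C| + 1 := by linarith [le_abs_self C]
      nlinarith [mul_nonneg (abs_nonneg (y - x)) (abs_nonneg (y - x))]
    have h5 : (|C| + 1) * |y - x| ≤ c := by
      have hC : 0 < |C| + 1 := by positivity
      calc (|C| + 1) * |y - x| ≤ (|C| + 1) * (c / (|C| + 1)) :=
            mul_le_mul_of_nonneg_left h2 hC.le
        _ = c := by field_simp
    calc |k y - k x| ≤ C * (y - x) ^ 2 := h3
      _ ≤ (|C| + 1) * |y - x| * |y - x| := h4
      _ ≤ c * |y - x| := mul_le_mul_of_nonneg_right h5 (abs_nonneg _)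
  intro s t
  exact is_const_of_deriv_eq_zero (fun x => (hd x).differentiableAt) (fun x => (hd x).deriv) s t

/-- where `m` is bounded, the two-point identity makes `k` vary quadratically -/
theorem k_diff_bound (γ T : ℝ → ℂ) (κ k m : ℝ → ℝ) (ε K R : ℝ)
    (hγ : ∀ s, HasDerivAt γ (T s) s) (hunit : ∀ s, ‖T s‖ = 1)
    (hT : ∀ s, HasDerivAt T ((κ s : ℂ) * (Complex.I * T s)) s)
    (hκ : ∀ s, 0 < κ s) (hK : ∀ s, κ s ≤ K)
    (hinv : ∀ s t, |s - t| < ε →
      (k s - k t) * dot (γ t - γ s) (γ t - γ s) =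
        m t * dot (γ t - γ s) (Complex.I * T t) ^ 2 -
        m s * dot (γ t - γ s) (Complex.I * T s) ^ 2)
    (s t : ℝ) (h1 : |s - t| < ε) (h2 : K * |t - s| ≤ 1 / 2)
    (hRs : |m s| ≤ R) (hRt : |m t| ≤ R) :
    |k t - k s| ≤ 8 * R * K ^ 2 * (t - s) ^ 2 := by
  have hK0 : 0 < K := lt_of_lt_of_le (hκ 0) (hK 0)
  have hR0 : 0 ≤ R := le_trans (abs_nonneg _) hRs
  have hflip : dot (γ t - γ s) (Complex.I * T t) = -dot (γ s - γ t) (Complex.I * T t) := by
    simp only [dot, Complex.sub_re, Complex.sub_im]; ring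
  have hid := hinv s t h1
  have hNs := chord_normal_le γ T κ K hγ hunit hT hκ hK s t
  have hNt := chord_normal_le γ T κ K hγ hunit hT hκ hK t s
  rw [← abs_neg, ← hflip, abs_sub_comm s t] at hNt
  have hd := chord_norm_ge γ T κ K hγ hunit hT hκ hK s t h2
  rw [dot_self_eq] at hid
  obtain ⟨τ, hτ⟩ : ∃ τ, τ = |t - s| := ⟨_, rfl⟩
  rw [← hτ] at hNs hNt hd
  have hτ0 : 0 ≤ τ := by rw [hτ]; exact abs_nonneg _
  have hsq : (t - s) ^ 2 = τ ^ 2 := by rw [hτ, sq_abs]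
  rw [hsq]
  have hd2 : τ ^ 2 / 4 ≤ ‖γ t - γ s‖ ^ 2 := by
    have : (τ / 2) ^ 2 ≤ ‖γ t - γ s‖ ^ 2 := pow_le_pow_left₀ (by positivity) hd 2
    linarith [this]
  have hb1 : dot (γ t - γ s) (Complex.I * T t) ^ 2 ≤ (K * τ * τ) ^ 2 := by
    rw [← sq_abs (dot (γ t - γ s) (Complex.I * T t))]
    exact pow_le_pow_left₀ (abs_nonneg _) hNt 2
  have hb2 : dot (γ t - γ s) (Complex.I * T s) ^ 2 ≤ (K * τ * τ) ^ 2 := by
    rw [← sq_abs (dot (γ t - γ s) (Complex.I * T s))]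
    exact pow_le_pow_left₀ (abs_nonneg _) hNs 2
  have hrhs : |m t * dot (γ t - γ s) (Complex.I * T t) ^ 2 -
      m s * dot (γ t - γ s) (Complex.I * T s) ^ 2| ≤ 2 * R * (K * τ * τ) ^ 2 := by
    have a1 : |m t * dot (γ t - γ s) (Complex.I * T t) ^ 2| ≤ R * (K * τ * τ) ^ 2 := by
      rw [abs_mul, abs_of_nonneg (sq_nonneg (dot (γ t - γ s) (Complex.I * T t)))]
      exact mul_le_mul hRt hb1 (sq_nonneg _) hR0
    have a2 : |m s * dot (γ t - γ s) (Complex.I * T s) ^ 2| ≤ R * (K * τ * τ) ^ 2 := by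
      rw [abs_mul, abs_of_nonneg (sq_nonneg (dot (γ t - γ s) (Complex.I * T s)))]
      exact mul_le_mul hRs hb2 (sq_nonneg _) hR0
    have := abs_sub (m t * dot (γ t - γ s) (Complex.I * T t) ^ 2)
      (m s * dot (γ t - γ s) (Complex.I * T s) ^ 2)
    linarith
  rw [← hid, abs_mul, abs_of_nonneg (sq_nonneg ‖γ t - γ s‖)] at hrhs
  have hkey : |k s - k t| * (τ ^ 2 / 4) ≤ 2 * R * (K * τ * τ) ^ 2 :=
    le_trans (mul_le_mul_of_nonneg_left hd2 (abs_nonneg _)) hrhs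
  rw [abs_sub_comm (k t) (k s)]
  by_cases hτz : τ = 0
  · have : t - s = 0 := by
      rw [hτz] at hτ
      exact abs_eq_zero.mp hτ.symm
    have hts : t = s := by linarith
    rw [hts, sub_self, abs_zero, hτz]
    positivity
  · have hτpos : 0 < τ := lt_of_le_of_ne hτ0 (Ne.symm hτz)
    have h4 : |k s - k t| * τ ^ 2 ≤ (8 * R * K ^ 2 * τ ^ 2) * τ ^ 2 := by
      have e : 2 * R * (K * τ * τ) ^ 2 = (2 * R * K ^ 2 * τ ^ 2) * τ ^ 2 := by ring
      rw [e] at hkey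
      linarith
    exact le_of_mul_le_mul_right h4 (by positivity)

/-- the invariant `k + m sin^2` has constant `k` -/
theorem k_const (γ T : ℝ → ℂ) (κ k m : ℝ → ℝ) (ε K : ℝ)
    (hγ : ∀ s, HasDerivAt γ (T s) s) (hunit : ∀ s, ‖T s‖ = 1)
    (hT : ∀ s, HasDerivAt T ((κ s : ℂ) * (Complex.I * T s)) s)
    (hκ : ∀ s, 0 < κ s) (hK : ∀ s, κ s ≤ K) (hε : 0 < ε)
    (hinv : ∀ s t, |s - t| < ε →
      (k s - k t) * dot (γ t - γ s) (γ t - γ s) =
        m t * dot (γ t - γ s) (Complex.I * T t) ^ 2 -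
        m s * dot (γ t - γ s) (Complex.I * T s) ^ 2) :
    ∀ s t, k s = k t := by
  have hK0 : 0 < K := lt_of_lt_of_le (hκ 0) (hK 0)
  apply const_of_local_sq_bound
  intro x
  obtain ⟨r0, R, hr0, hR⟩ := local_bound γ T κ k m ε K hγ hunit hT hκ hK hε hinv x
  refine ⟨8 * R * K ^ 2, min r0 (min (ε / 2) (1 / (2 * K))),
    lt_min hr0 (lt_min (by linarith) (by positivity)), ?_⟩
  intro y hy
  have hy1 : |y - x| ≤ r0 := le_trans hy (min_le_left _ _)
  have hy2 : |y - x| ≤ ε / 2 := le_trans hy (le_trans (min_le_right _ _) (min_le_left _ _))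
  have hy3 : |y - x| ≤ 1 / (2 * K) :=
    le_trans hy (le_trans (min_le_right _ _) (min_le_right _ _))
  apply k_diff_bound γ T κ k m ε K R hγ hunit hT hκ hK hinv x y
  · rw [abs_sub_comm]; linarith
  · have h3 : K * |y - x| ≤ K * (1 / (2 * K)) := mul_le_mul_of_nonneg_left hy3 hK0.le
    have e : K * (1 / (2 * K)) = 1 / 2 := by field_simp
    linarith
  · apply hR; simp [hr0.le]
  · exact hR y hy1

end Vale.Agent.Lib.P097
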