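import Mathlib
import Vale.Agent.Lib.P097.EvenQuadGen

namespace Vale.Agent.Lib.P097

open Complex

theorem ellipse_of_even_quadratic_gen (γ T : ℝ → ℂ) (κ lam nu : ℝ → ℝ) (L ε K : ℝ)
    (hL : 0 < L) (hper : ∀ s, γ (s + L) = γ s)
    (hγ : ∀ s, HasDerivAt γ (T s) s) (hunit : ∀ s, ‖T s‖ = 1)
    (hT : ∀ s, HasDerivAt T ((κ s : ℂ) * (Complex.I * T s)) s) (hκ : ∀ s, 0 < κ s)
    (hK : ∀ s, κ s ≤ K)
    (hne : ∃ s, lam s ≠ nu s) (hε : 0 < ε)
    (hinv : ∀ s t, |s - t| < ε →
      lam s * dot (γ t - γ s) (T s) ^ 2 + nu s * dot (γ t - γ s) (Complex.I * T s) ^ 2 =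
        lam t * dot (γ t - γ s) (T t) ^ 2 + nu t * dot (γ t - γ s) (Complex.I * T t) ^ 2) :
    ∃ (c : ℂ) (α β δ : ℝ), 0 < α ∧ 0 < α * δ - β ^ 2 ∧
      Set.range γ = {z : ℂ | α * (z - c).re ^ 2 + 2 * β * (z - c).re * (z - c).im
        + δ * (z - c).im ^ 2 = 1} := by
  have hK0 : 0 < K := lt_of_lt_of_le (hκ 0) (hK 0)
  -- rewrite the invariance with the squared chord length
  have hinv' : ∀ s t, |s - t| < ε →
      (lam s - lam t) * dot (γ t - γ s) (γ t - γ s) =
        (nu t - lam t) * dot (γ t - γ s) (Complex.I * T t) ^ 2 -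
        (nu s - lam s) * dot (γ t - γ s) (Complex.I * T s) ^ 2 := by
    intro s t hst
    have h := hinv s t hst
    have f1 := dot_frame (γ t - γ s) (T s) (hunit s)
    have f2 := dot_frame (γ t - γ s) (T t) (hunit t)
    linear_combination h - lam s * f1 + lam t * f2
  have hflip : ∀ s t, dot (γ t - γ s) (Complex.I * T t) = -dot (γ s - γ t) (Complex.I * T t) := by
    intro s t
    simp only [dot, Complex.sub_re, Complex.sub_im]; ring
  -- lam is constant
  have hlam : ∀ s t, lam s = lam t :=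
    k_const γ T κ lam (fun s => nu s - lam s) ε K hγ hunit hT hκ hK hε hinv'
  -- the remaining identity
  have hm : ∀ s t, |s - t| < ε →
      (nu s - lam s) * dot (γ t - γ s) (Complex.I * T s) ^ 2 =
        (nu t - lam t) * dot (γ s - γ t) (Complex.I * T t) ^ 2 := by
    intro s t hst
    have h := hinv' s t hst
    rw [hflip s t] at h
    linear_combination h - dot (γ t - γ s) (γ t - γ s) * hlam s t
  obtain ⟨ε', hε'⟩ : ∃ ε', ε' = min ε (1 / (2 * K)) := ⟨_, rfl⟩
  have hε'pos : 0 < ε' := by rw [hε']; exact lt_min hε (by positivity)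
  obtain ⟨s0, hs0⟩ := hne
  apply ellipse_of_linear_integral γ T κ (fun s => Real.sqrt |nu s - lam s|) (fun _ => 0) L ε'
    hL hper hγ hunit hT hκ ⟨s0, Or.inl ?_⟩ hε'pos
  · intro s t hst
    have h1 : |s - t| < ε := lt_of_lt_of_le hst (by rw [hε']; exact min_le_left _ _)
    have h2 : K * |s - t| ≤ 1 / 2 := by
      have : |s - t| ≤ 1 / (2 * K) := le_trans hst.le (by rw [hε']; exact min_le_right _ _)
      have h3 : K * |s - t| ≤ K * (1 / (2 * K)) := mul_le_mul_of_nonneg_left this hK0.le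
      have e : K * (1 / (2 * K)) = 1 / 2 := by field_simp
      linarith
    simp only [zero_mul, add_zero]
    by_cases hst' : s = t
    · subst hst'; rfl
    · have p1 := chord_normal_pos γ T κ K hγ hunit hT hκ hK s t (Ne.symm hst')
        (by rw [abs_sub_comm]; exact h2)
      have p2 := chord_normal_pos γ T κ K hγ hunit hT hκ hK t s hst' h2
      have hmm := hm s t h1
      have hx : 0 ≤ Real.sqrt |nu s - lam s| * dot (γ t - γ s) (Complex.I * T s) :=
        mul_nonneg (Real.sqrt_nonneg _) p1.le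
      have hy : 0 ≤ Real.sqrt |nu t - lam t| * dot (γ s - γ t) (Complex.I * T t) :=
        mul_nonneg (Real.sqrt_nonneg _) p2.le
      have hsq : (Real.sqrt |nu s - lam s| * dot (γ t - γ s) (Complex.I * T s)) ^ 2 =
          (Real.sqrt |nu t - lam t| * dot (γ s - γ t) (Complex.I * T t)) ^ 2 := by
        rw [mul_pow, mul_pow, Real.sq_sqrt (abs_nonneg _), Real.sq_sqrt (abs_nonneg _)]
        have := congrArg abs hmm
        rw [abs_mul, abs_mul, abs_of_nonneg (sq_nonneg (dot (γ t - γ s) (Complex.I * T s))),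
          abs_of_nonneg (sq_nonneg (dot (γ s - γ t) (Complex.I * T t)))] at this
        exact this
      exact (sq_eq_sq₀ hx hy).mp hsq
  · show Real.sqrt |nu s0 - lam s0| ≠ 0
    have : 0 < |nu s0 - lam s0| := abs_pos.mpr (sub_ne_zero.mpr (Ne.symm hs0))
    exact (Real.sqrt_pos.mpr this).ne'

end Vale.Agent.Lib.P097
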